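import Mathlib

open Finset
open scoped Classical

noncomputable section

namespace Vale.Agent.P039

/-- A two-coloured triangulated surface: `F` triangles, `E` edges, `V` vertices. -/
structure Mp (F E V : Type) where
  col : F → Bool
  en : Bool → E → F
  nx : Bool → E → E
  tl : E → V
  col_en : ∀ s e, col (en s e) = s
  en_surj : ∀ x, ∃ e, en (col x) e = x
  en_nx : ∀ s e, en s (nx s e) = en s e
  nx_ne : ∀ s e, nx s e ≠ e
  nx3 : ∀ s e, nx s (nx s (nx s e)) = e
  fib : ∀ s e e', en s e' = en s e → e' = e ∨ e' = nx s e ∨ e' = nx s (nx s e)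
  tl_nx : ∀ e, tl (nx false e) = tl (nx true e)
  tl_surj : ∀ v, ∃ e, tl e = v

variable {F E V : Type} [Fintype F] [Fintype E] [Fintype V]

namespace Mp

variable (M : Mp F E V)

def hd (e : E) : V := M.tl (M.nx true e)

omit [Fintype F] [Fintype E] [Fintype V] in
lemma tl_nx' (s : Bool) (e : E) : M.tl (M.nx s e) = M.hd e := by
  cases s
  · exact M.tl_nx e
  · rfl

def nxE (s : Bool) : E ≃ E where
  toFun := M.nx s
  invFun := fun e => M.nx s (M.nx s e)
  left_inv := fun e => M.nx3 s e
  right_inv := fun e => M.nx3 s e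

omit [Fintype F] [Fintype E] [Fintype V] in
lemma nx_inj (s : Bool) : Function.Injective (M.nx s) := (M.nxE s).injective

omit [Fintype F] [Fintype E] [Fintype V] in
lemma nx2_ne (s : Bool) (e : E) : M.nx s (M.nx s e) ≠ e := by
  intro h
  have := M.nx3 s e
  rw [h] at this
  exact M.nx_ne s e this

omit [Fintype F] [Fintype V] in
lemma sum_nx {β : Type} [AddCommMonoid β] (s : Bool) (f : E → β) :
    ∑ e, f (M.nx s e) = ∑ e, f e := Equiv.sum_comp (M.nxE s) f

omit [Fintype F] [Fintype E] [Fintype V] in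
lemma en_ne (e e' : E) : M.en true e ≠ M.en false e' := by
  intro h
  have h1 := M.col_en true e
  rw [h, M.col_en] at h1
  exact Bool.false_ne_true h1

omit [Fintype F] [Fintype V] in
lemma fiber_eq (s : Bool) (e : E) :
    univ.filter (fun e' => M.en s e' = M.en s e) = {e, M.nx s e, M.nx s (M.nx s e)} := by
  ext e'
  simp only [mem_filter, mem_univ, true_and, mem_insert, mem_singleton]
  constructor
  · exact M.fib s e e'
  · rintro (rfl | rfl | rfl)
    · rfl
    · exact M.en_nx _ _
    · rw [M.en_nx, M.en_nx]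

omit [Fintype F] [Fintype V] in
lemma sum_fiber {β : Type} [AddCommMonoid β] (s : Bool) (e : E) (f : E → β) :
    ∑ e' ∈ univ.filter (fun e' => M.en s e' = M.en s e), f e'
      = f e + f (M.nx s e) + f (M.nx s (M.nx s e)) := by
  rw [M.fiber_eq, sum_insert, sum_insert, sum_singleton, add_assoc]
  · simp only [mem_singleton]; exact (M.nx_ne s _).symm
  · simp only [mem_insert, mem_singleton, not_or]
    exact ⟨(M.nx_ne s _).symm, (M.nx2_ne s _).symm⟩

omit [Fintype F] [Fintype V] in
lemma card_fiber (s : Bool) (x : F) (hx : M.col x = s) :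
    (univ.filter (fun e' => M.en s e' = x)).card = 3 := by
  obtain ⟨e, he⟩ := M.en_surj x
  rw [hx] at he
  rw [← he, card_eq_sum_ones, M.sum_fiber]

omit [Fintype F] [Fintype V] in
lemma card_en_mem (s : Bool) (U : Finset F) :
    (univ.filter (fun e => M.en s e ∈ U)).card = 3 * (U.filter (fun x => M.col x = s)).card := by
  rw [card_eq_sum_card_fiberwise (f := M.en s) (t := U.filter (fun x => M.col x = s))]
  · rw [mul_comm, ← smul_eq_mul, ← sum_const]
    refine sum_congr rfl fun x hx => ?_
    rw [mem_filter] at hx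
    rw [← M.card_fiber s x hx.2]
    congr 1
    ext e
    simp only [mem_filter, mem_univ, true_and]
    constructor
    · exact fun h => h.2
    · exact fun h => ⟨h ▸ hx.1, h⟩
  · intro e he
    simp only [coe_filter, mem_univ, true_and, Set.mem_setOf_eq] at he ⊢
    exact ⟨he, M.col_en s e⟩

def dl (h : F → ℚ) (e : E) : ℚ := h (M.en true e) - h (M.en false e)

def dv (g : V → ℚ) (e : E) : ℚ := g (M.hd e) - g (M.tl e)

omit [Fintype F] [Fintype V] in
lemma orth (h : F → ℚ) (g : V → ℚ) : ∑ e, M.dl h e * M.dv g e = 0 := by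
  have key : ∀ s, ∑ e, h (M.en s e) * M.dv g e = 0 := by
    intro s
    have h1 := M.sum_nx s (fun e => h (M.en s e) * g (M.tl e))
    simp only [M.en_nx, M.tl_nx'] at h1
    simp only [dv, mul_sub, sum_sub_distrib, h1, sub_self]
  simp only [dl, sub_mul, sum_sub_distrib, key, sub_self]

def Euler (_M : Mp F E V) : Prop := Fintype.card E + 2 ≤ Fintype.card F + Fintype.card V

def cut (U : Finset F) : Finset E :=
  univ.filter (fun e => ¬ (M.en true e ∈ U ↔ M.en false e ∈ U))

def Conn3 : Prop := ∀ U : Finset F, U.Nonempty → Uᶜ.Nonempty → 3 ≤ (M.cut U).card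

def Conn : Prop := ∀ h : F → ℚ, (∀ e, h (M.en true e) = h (M.en false e)) → ∀ x y, h x = h y

omit [Fintype V] in
lemma Conn3.conn (hc : M.Conn3) : M.Conn := by
  intro h hh x y
  by_contra hne
  have := hc (univ.filter (fun z => h z = h x)) ⟨x, by simp⟩ ⟨y, by simpa using fun h' => hne h'.symm⟩
  have h0 : M.cut (univ.filter (fun z => h z = h x)) = ∅ := by
    ext e
    simp [cut, hh e]
  rw [h0] at this
  simp at this

/-- edges touching `U` -/
def ed (U : Finset F) : Finset E := univ.filter (fun e => M.en true e ∈ U ∨ M.en false e ∈ U)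

omit [Fintype F] [Fintype V] in
lemma mem_ed {U : Finset F} {s : Bool} {e : E} (h : M.en s e ∈ U) : e ∈ M.ed U := by
  cases s <;> simp [ed, h]

omit [Fintype F] [Fintype V] in
lemma mem_ed_iff {U : Finset F} {e : E} : e ∈ M.ed U ↔ ∃ s, M.en s e ∈ U := by
  simp only [ed, mem_filter, mem_univ, true_and, Bool.exists_bool]; tauto

omit [Fintype F] [Fintype V] in
lemma tri_const (U : Finset F) (g : V → ℚ) (hg : ∀ e ∈ M.ed U, g (M.hd e) = g (M.tl e))
    {s : Bool} {e e' : E} (he : M.en s e ∈ U) (h : M.en s e' = M.en s e) :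
    g (M.tl e') = g (M.tl e) := by
  have h1 : g (M.tl (M.nx s e)) = g (M.tl e) := by
    rw [M.tl_nx']; exact hg e (M.mem_ed he)
  have h2 : g (M.tl (M.nx s (M.nx s e))) = g (M.tl (M.nx s e)) := by
    rw [M.tl_nx']; exact hg _ (M.mem_ed (s := s) (by rw [M.en_nx]; exact he))
  rcases M.fib s e e' h with rfl | rfl | rfl
  · rfl
  · exact h1
  · rw [h2, h1]

omit [Fintype F] [Fintype V] in
lemma side_conn (hc : M.Conn) (U : Finset F) (g : V → ℚ)
    (hg : ∀ e ∈ M.ed U, g (M.hd e) = g (M.tl e)) (γ : ℚ)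
    (hγ : ∀ e ∈ M.cut U, g (M.tl e) = γ) :
    ∀ e ∈ M.ed U, ∀ e' ∈ M.ed U, g (M.tl e) = g (M.tl e') := by
  choose r hr using M.en_surj
  let h : F → ℚ := fun x => if x ∈ U then g (M.tl (r x)) else γ
  have h1 : ∀ s e, M.en s e ∈ U → h (M.en s e) = g (M.tl e) := by
    intro s e he
    simp only [h, if_pos he]
    refine M.tri_const U g hg he ?_
    have := hr (M.en s e)
    rwa [M.col_en] at this
  have h2 : ∀ e, h (M.en true e) = h (M.en false e) := by
    intro e
    by_cases a : M.en true e ∈ U <;> by_cases b : M.en false e ∈ U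
    · rw [h1 _ _ a, h1 _ _ b]
    · rw [h1 _ _ a, hγ e (by simp [cut, a, b])]; simp [h, b]
    · rw [h1 _ _ b, hγ e (by simp [cut, a, b])]; simp [h, a]
    · simp [h, a, b]
  intro e he e' he'
  obtain ⟨s, hs⟩ := M.mem_ed_iff.1 he
  obtain ⟨s', hs'⟩ := M.mem_ed_iff.1 he'
  rw [← h1 _ _ hs, ← h1 _ _ hs']
  exact hc h h2 _ _

omit [Fintype V] in
lemma tconn (hc : M.Conn) (g : V → ℚ) (hg : ∀ e, g (M.hd e) = g (M.tl e)) (u v : V) :
    g u = g v := by
  obtain ⟨e, rfl⟩ := M.tl_surj u
  obtain ⟨e', rfl⟩ := M.tl_surj v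
  refine M.side_conn hc univ g (fun e _ => hg e) 0 (fun e he => ?_) e ?_ e' ?_
  · simp [cut] at he
  · simp [ed]
  · simp [ed]

end Mp

def ext {α : Type} (U : Finset α) : (U → ℚ) →ₗ[ℚ] (α → ℚ) where
  toFun := fun h x => if hx : x ∈ U then h ⟨x, hx⟩ else 0
  map_add' := by
    intro a b; funext x; by_cases hx : x ∈ U <;> simp [hx]
  map_smul' := by
    intro c a; funext x; by_cases hx : x ∈ U <;> simp [hx]

lemma sq_sum_zero {ι : Type} (s : Finset ι) (f : ι → ℚ) (h : ∑ i ∈ s, f i * f i = 0) :
    ∀ i ∈ s, f i = 0 := by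
  intro i hi
  have := (sum_eq_zero_iff_of_nonneg (fun j _ => mul_self_nonneg (f j))).1 h i hi
  exact mul_self_eq_zero.1 this

namespace Mp

variable (M : Mp F E V)

/-- the Euler inequality for a sub-complex -/
lemma lemA (hc : M.Conn) (U : Finset F) (x0 : F) (hx0 : x0 ∉ U) (S : Finset E)
    (hS : ∀ s e, M.en s e ∈ U → e ∈ S) (X : Finset V)
    (hX : ∀ g : V → ℚ, (∀ e ∈ S, g (M.hd e) = g (M.tl e)) → ∀ x ∈ X, ∀ y ∈ X, g x = g y) :
    U.card + X.card ≤ S.card + 1 := by
  let Φ : ((U → ℚ) × (X → ℚ)) →ₗ[ℚ] ((S → ℚ) × ℚ) :=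
    { toFun := fun p => (fun e => M.dl (ext U p.1) e + M.dv (ext X p.2) e, ∑ x, p.2 x)
      map_add' := by
        intro a b
        ext e
        · simp [dl, dv]; ring
        · simp [sum_add_distrib]
      map_smul' := by
        intro c a
        ext e
        · simp [dl, dv]; ring
        · simp [mul_sum] }
  have hinj : Function.Injective Φ := by
    rw [injective_iff_map_eq_zero]
    rintro ⟨h, g⟩ h0
    have h1 : ∀ e ∈ S, M.dl (ext U h) e + M.dv (ext X g) e = 0 := fun e he =>
      congrFun (congrArg Prod.fst h0) ⟨e, he⟩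
    have h2 : ∑ x, g x = 0 := congrArg Prod.snd h0
    have h3 : ∀ e, e ∉ S → M.dl (ext U h) e = 0 := by
      intro e he
      have a : M.en true e ∉ U := fun a => he (hS _ _ a)
      have b : M.en false e ∉ U := fun a => he (hS _ _ a)
      simp [dl, ext, a, b]
    have h4 : ∑ e ∈ S, M.dl (ext U h) e * M.dv (ext X g) e = 0 := by
      rw [← M.orth (ext U h) (ext X g)]
      refine sum_subset (subset_univ _) fun e _ he => ?_
      rw [h3 e he, zero_mul]
    have h5 : ∑ e ∈ S, M.dv (ext X g) e * M.dv (ext X g) e = 0 := by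
      have : ∀ e ∈ S, M.dv (ext X g) e * M.dv (ext X g) e
          = - (M.dl (ext U h) e * M.dv (ext X g) e) := by
        intro e he
        have := h1 e he
        linear_combination (M.dv (ext X g) e) * this
      rw [sum_congr rfl this, sum_neg_distrib, h4, neg_zero]
    have h6 := sq_sum_zero S _ h5
    have h7 := hX (ext X g) (fun e he => sub_eq_zero.1 (h6 e he))
    have h8 : ∀ e, M.dl (ext U h) e = 0 := by
      intro e
      by_cases he : e ∈ S
      · have := h1 e he
        rwa [h6 e he, add_zero] at this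
      · exact h3 e he
    have h9 := hc (ext U h) (fun e => sub_eq_zero.1 (h8 e))
    ext x
    · have := h9 x x0
      simpa [ext, hx0] using this
    · have h10 : ∀ y : X, g y = g x := by
        intro y
        have := h7 y y.2 x x.2
        simpa [ext] using this
      rw [sum_congr rfl (fun y _ => h10 y), sum_const, nsmul_eq_mul] at h2
      have : (0 : ℚ) < ((univ : Finset X).card : ℚ) := by
        exact_mod_cast card_pos.2 ⟨x, mem_univ _⟩
      exact (mul_eq_zero.1 h2).resolve_left this.ne'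
  have := LinearMap.finrank_le_finrank_of_injective hinj
  simpa [Module.finrank_prod, Module.finrank_fintype_fun_eq_card] using this

lemma exact_decomp (hc : M.Conn) (hE : M.Euler) (x0 : F) (z : E → ℚ) :
    ∃ h g, ∀ e, z e = M.dl h e + M.dv g e := by
  let Φ : ((F → ℚ) × (V → ℚ)) →ₗ[ℚ] ((E → ℚ) × ℚ × ℚ) :=
    { toFun := fun p => (fun e => M.dl p.1 e + M.dv p.2 e, p.1 x0, ∑ x, p.2 x)
      map_add' := by
        intro a b
        ext e
        · simp [dl, dv]; ring
        · simp
        · simp [sum_add_distrib]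
      map_smul' := by
        intro c a
        ext e
        · simp [dl, dv]; ring
        · simp
        · simp [mul_sum] }
  have hinj : Function.Injective Φ := by
    rw [injective_iff_map_eq_zero]
    rintro ⟨h, g⟩ h0
    have h1 : ∀ e, M.dl h e + M.dv g e = 0 := fun e =>
      congrFun (congrArg Prod.fst h0) e
    have h2 : ∑ x, g x = 0 := congrArg (fun p => p.2.2) h0
    have h3 : h x0 = 0 := congrArg (fun p => p.2.1) h0
    have h5 : ∑ e, M.dv g e * M.dv g e = 0 := by
      have : ∀ e ∈ univ, M.dv g e * M.dv g e = - (M.dl h e * M.dv g e) := by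
        intro e _
        have := h1 e
        linear_combination (M.dv g e) * this
      rw [sum_congr rfl this, sum_neg_distrib, M.orth, neg_zero]
    have h6 := sq_sum_zero _ _ h5
    have h7 := M.tconn hc g (fun e => sub_eq_zero.1 (h6 e (mem_univ _)))
    have h8 : ∀ e, M.dl h e = 0 := by
      intro e
      have := h1 e
      rwa [h6 e (mem_univ _), add_zero] at this
    have h9 := hc h (fun e => sub_eq_zero.1 (h8 e))
    ext x
    · simpa [h3] using h9 x x0
    · rw [sum_congr rfl (fun y _ => h7 y x), sum_const, nsmul_eq_mul] at h2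
      have : (0 : ℚ) < ((univ : Finset V).card : ℚ) := by
        exact_mod_cast card_pos.2 ⟨x, mem_univ _⟩
      exact (mul_eq_zero.1 h2).resolve_left this.ne'
  have hle := LinearMap.finrank_le_finrank_of_injective hinj
  have heq : Module.finrank ℚ ((F → ℚ) × (V → ℚ)) = Module.finrank ℚ ((E → ℚ) × ℚ × ℚ) := by
    apply le_antisymm hle
    simp only [Module.finrank_prod, Module.finrank_fintype_fun_eq_card, Module.finrank_self]
    unfold Euler at hE
    omega
  have hs := (LinearMap.injective_iff_surjective_of_finrank_eq_finrank heq).1 hinj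
  obtain ⟨⟨h, g⟩, hp⟩ := hs (z, 0, 0)
  exact ⟨h, g, fun e => (congrFun (congrArg Prod.fst hp) e).symm⟩

lemma flow_exact (hc : M.Conn) (hE : M.Euler) (x0 : F) (z : E → ℚ)
    (hz : ∀ g, ∑ e, z e * M.dv g e = 0) : ∃ h, ∀ e, z e = M.dl h e := by
  obtain ⟨h, g, hh⟩ := M.exact_decomp hc hE x0 z
  have h5 : ∑ e, M.dv g e * M.dv g e = 0 := by
    have : ∀ e ∈ univ, M.dv g e * M.dv g e = z e * M.dv g e - (M.dl h e * M.dv g e) := by
      intro e _
      rw [hh e]; ring
    rw [sum_congr rfl this, sum_sub_distrib, M.orth, hz, sub_zero]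
  have h6 := sq_sum_zero _ _ h5
  exact ⟨h, fun e => by rw [hh e, h6 e (mem_univ _), add_zero]⟩

lemma coflow_exact (hc : M.Conn) (hE : M.Euler) (x0 : F) (z : E → ℚ)
    (hz : ∀ h, ∑ e, z e * M.dl h e = 0) : ∃ g, ∀ e, z e = M.dv g e := by
  obtain ⟨h, g, hh⟩ := M.exact_decomp hc hE x0 z
  have h5 : ∑ e, M.dl h e * M.dl h e = 0 := by
    have : ∀ e ∈ univ, M.dl h e * M.dl h e = z e * M.dl h e - (M.dl h e * M.dv g e) := by
      intro e _
      rw [hh e]; ring
    rw [sum_congr rfl this, sum_sub_distrib, M.orth, hz, sub_zero]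
  have h6 := sq_sum_zero _ _ h5
  exact ⟨g, fun e => by rw [hh e, h6 e (mem_univ _), zero_add]⟩

omit [Fintype V] in
lemma exists_curl (hc : M.Conn) (τ : F → ℚ) (hτ : ∑ x, τ x = 0) :
    ∃ α : E → ℚ, ∀ k : F → ℚ, ∑ e, M.dl k e * α e = ∑ x, k x * τ x := by
  let c : E → F → ℚ := fun e x =>
    (if M.en true e = x then 1 else 0) - (if M.en false e = x then 1 else 0)
  have hcs : ∀ (k : F → ℚ) e, ∑ x, k x * c e x = M.dl k e := by
    intro k e
    simp [c, mul_sub, sum_sub_distrib, dl]
  let L : (F → ℚ) →ₗ[ℚ] (F → ℚ) :=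
    { toFun := fun h x => ∑ e, c e x * M.dl h e + ∑ y, h y
      map_add' := by
        intro a b
        funext x
        simp only [dl, Pi.add_apply, sum_add_distrib]
        have : ∀ e ∈ univ, c e x * (a (M.en true e) + b (M.en true e)
            - (a (M.en false e) + b (M.en false e))) = c e x * (a (M.en true e) - a (M.en false e))
              + c e x * (b (M.en true e) - b (M.en false e)) := fun e _ => by ring
        rw [sum_congr rfl this, sum_add_distrib]; ring
      map_smul' := by
        intro r a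
        funext x
        simp only [dl, Pi.smul_apply, smul_eq_mul, RingHom.id_apply, mul_add, mul_sum]
        congr 1
        exact sum_congr rfl fun e _ => by ring }
  have hL : ∀ k h : F → ℚ, ∑ x, k x * L h x
      = ∑ e, M.dl k e * M.dl h e + (∑ x, k x) * ∑ y, h y := by
    intro k h
    change ∑ x, k x * (∑ e, c e x * M.dl h e + ∑ y, h y) = _
    simp only [mul_add, sum_add_distrib, ← sum_mul]
    congr 1
    simp only [mul_sum]
    rw [sum_comm]
    refine sum_congr rfl fun e _ => ?_
    rw [← hcs k e, sum_mul]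
    exact sum_congr rfl fun x _ => by ring
  have hinj : Function.Injective L := by
    rw [injective_iff_map_eq_zero]
    intro h h0
    have h1 := hL h h
    rw [h0] at h1
    simp only [Pi.zero_apply, mul_zero, sum_const_zero] at h1
    have a := sum_nonneg (s := univ) (fun e _ => mul_self_nonneg (M.dl h e))
    have b := mul_self_nonneg (∑ x, h x)
    have h2 : ∑ e, M.dl h e * M.dl h e = 0 := by linarith
    have h3 : ∑ x, h x = 0 := mul_self_eq_zero.1 (by linarith)
    have h4 := hc h (fun e => sub_eq_zero.1 (sq_sum_zero _ _ h2 e (mem_univ _)))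
    funext x
    rw [sum_congr rfl (fun y _ => h4 y x), sum_const, nsmul_eq_mul] at h3
    have : (0 : ℚ) < ((univ : Finset F).card : ℚ) := by
      exact_mod_cast card_pos.2 ⟨x, mem_univ _⟩
    exact (mul_eq_zero.1 h3).resolve_left this.ne'
  obtain ⟨h, hh⟩ := (LinearMap.injective_iff_surjective.1 hinj) τ
  refine ⟨M.dl h, fun k => ?_⟩
  have h1 := hL (fun _ => 1) h
  have h2 := hL k h
  rw [hh] at h1 h2
  simp only [one_mul, hτ, dl, sub_self, zero_mul, sum_const_zero, zero_add, sum_const,
    nsmul_eq_mul, mul_one] at h1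
  rw [h2]
  rcases mul_eq_zero.1 h1.symm with h3 | h3
  · have : (univ : Finset F) = ∅ := by
      rw [← card_eq_zero]; exact_mod_cast h3
    simp [this]
  · rw [h3, mul_zero, add_zero]

end Mp

end Vale.Agent.P039
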