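import Vale.Agent.P039.Sign

open Finset
open scoped Classical

noncomputable section

namespace Vale.Agent.P039

variable {F E V : Type} [Fintype F] [Fintype E] [Fintype V]

namespace Mp

variable (M : Mp F E V)

def Conn4 : Prop := ∀ U : Finset F, 2 ≤ U.card → 2 ≤ Uᶜ.card → 4 ≤ (M.cut U).card

def U3 (X : Finset V) : Finset F := univ.filter (fun x => ∀ s e, M.en s e = x → M.tl e ∈ X)

def U0 (X : Finset V) : Finset F := univ.filter (fun x => ∀ s e, M.en s e = x → M.tl e ∉ X)

def As (s : Bool) (X : Finset V) : Finset E :=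
  univ.filter (fun e => M.tl e ∉ X ∧ M.hd e ∉ X ∧ M.tl (M.nx s (M.nx s e)) ∈ X)

def mX (X : Finset V) : ℕ := (univ.filter (fun e => M.tl e ∈ X)).card

def eX (X : Finset V) : Finset E := univ.filter (fun e => M.tl e ∈ X ∧ M.hd e ∈ X)

omit [Fintype F] [Fintype E] [Fintype V] in
lemma en_eq_col {s s' : Bool} {e e' : E} (h : M.en s' e' = M.en s e) : s' = s := by
  rw [← M.col_en s' e', h, M.col_en]

omit [Fintype V] in
lemma en_mem_U3 (X : Finset V) (s : Bool) (e : E) : M.en s e ∈ M.U3 X ↔
    M.tl e ∈ X ∧ M.tl (M.nx s e) ∈ X ∧ M.tl (M.nx s (M.nx s e)) ∈ X := by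
  simp only [U3, mem_filter, mem_univ, true_and]
  constructor
  · intro h
    exact ⟨h s e rfl, h s _ (M.en_nx _ _), h s _ (by rw [M.en_nx, M.en_nx])⟩
  · rintro ⟨h1, h2, h3⟩ s' e' h
    obtain rfl := M.en_eq_col h
    rcases M.fib _ _ _ h with rfl | rfl | rfl <;> assumption

omit [Fintype V] in
lemma count_As (X : Finset V) (s : Bool) :
    (M.As s X).card + 2 * (M.eX X).card = M.mX X + 3 * M.nc s (M.U3 X) := by
  unfold nc
  rw [← M.card_en_mem]
  let f : E → ℕ := fun e => if M.tl e ∈ X ∧ M.tl (M.nx s e) ∈ X then 1 else 0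
  let p : E → ℕ := fun e => if M.tl e ∈ X then 1 else 0
  have e1 : (M.eX X).card = ∑ e, f e := by
    simp only [eX, card_filter, f, M.tl_nx']
  have e2 : M.mX X = ∑ e, p (M.nx s (M.nx s e)) := by
    rw [M.sum_nx s (fun e => p (M.nx s e)), M.sum_nx s p]
    simp only [mX, card_filter, p]
  have e3 : ∑ e, f e = ∑ e, f (M.nx s e) := (M.sum_nx s f).symm
  have e4 : ∑ e, f e = ∑ e, f (M.nx s (M.nx s e)) := by
    rw [M.sum_nx s (fun e => f (M.nx s e)), M.sum_nx s f]
  rw [two_mul, e1, e2]
  nth_rw 1 [e3]
  rw [e4, As, card_filter, card_filter, ← sum_add_distrib, ← sum_add_distrib, ← sum_add_distrib]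
  refine sum_congr rfl fun e _ => ?_
  simp only [f, p, M.en_mem_U3, M.nx3, ← M.tl_nx' s e]
  by_cases a : M.tl e ∈ X <;> by_cases b : M.tl (M.nx s e) ∈ X <;>
    by_cases c : M.tl (M.nx s (M.nx s e)) ∈ X <;> simp [a, b, c]

omit [Fintype V] in
lemma mem_As (X : Finset V) {s s' : Bool} {e : E} (h1 : M.en s e ∈ M.U0 X)
    (h2 : M.en s' e ∉ M.U0 X) : e ∈ M.As s' X := by
  simp only [U0, As, mem_filter, mem_univ, true_and] at h1 h2 ⊢
  have a := h1 s e rfl
  have b := h1 s _ (M.en_nx s e)
  rw [M.tl_nx'] at b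
  refine ⟨a, b, ?_⟩
  push Not at h2
  obtain ⟨s'', e', h3, h4⟩ := h2
  obtain rfl := M.en_eq_col h3
  rcases M.fib _ _ _ h3 with rfl | rfl | rfl
  · exact absurd h4 a
  · rw [M.tl_nx'] at h4; exact absurd h4 b
  · exact h4

lemma key (h3 : M.Conn3) (h4 : M.Conn4) {t0 : F} (h0 : M.col t0 = true) (n : ℕ) :
    ∀ X : Finset V, X.card ≤ n → (∀ v ∈ X, ¬ M.root t0 v) →
      2 * X.card + M.nc true (M.U3 X) ≤ M.mX X := by
  have hc := Conn3.conn M h3
  induction n with
  | zero =>
    intro X hX _
    have : X = ∅ := card_eq_zero.1 (by omega)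
    subst this
    have : M.U3 ∅ = ∅ := by
      ext x
      obtain ⟨e, he⟩ := M.en_surj x
      simp only [U3, mem_filter, mem_univ, true_and, notMem_empty, iff_false]
      exact fun h => h _ e he
    simp [this, nc]
  | succ n ih =>
    intro X hX hr
    rcases X.eq_empty_or_nonempty with rfl | ⟨v0, hv0⟩
    · exact ih ∅ (by simp) hr
    have hS : ∀ s e, M.en s e ∈ M.U3 X → e ∈ M.eX X := by
      intro s e he
      rw [M.en_mem_U3, M.tl_nx'] at he
      simp [eX, he.1, he.2.1]
    by_cases hcon : ∀ g : V → ℚ, (∀ e ∈ M.eX X, g (M.hd e) = g (M.tl e)) →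
        ∀ x ∈ X, ∀ y ∈ X, g x = g y
    · obtain ⟨e0, he0⟩ := M.en_surj t0
      rw [h0] at he0
      have ht3 : t0 ∉ M.U3 X := by
        rw [← he0, M.en_mem_U3]
        exact fun h => hr _ h.1 ⟨e0, he0, rfl⟩
      have i1 := M.lemA hc (M.U3 X) t0 ht3 (M.eX X) hS X hcon
      have ht0 : t0 ∈ M.U0 X := by
        simp only [U0, mem_filter, mem_univ, true_and]
        intro s e he hx
        obtain rfl : s = true := by rw [← M.col_en s e, he, h0]
        exact hr _ hx ⟨e, he, rfl⟩
      have i2 : 4 ≤ (M.As true X).card + 2 * (M.As false X).card := by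
        by_cases hU : 2 ≤ (M.U0 X).card
        · obtain ⟨e1, rfl⟩ := M.tl_surj v0
          have a : ∀ s, M.en s e1 ∈ (M.U0 X)ᶜ := by
            intro s
            simp only [U0, mem_compl, mem_filter, mem_univ, true_and]
            exact fun h => h s e1 rfl hv0
          have b : 2 ≤ (M.U0 X)ᶜ.card :=
            one_lt_card.2 ⟨_, a true, _, a false, M.en_ne _ _⟩
          have c := h4 _ hU b
          have d : M.cut (M.U0 X) ⊆ M.As true X ∪ M.As false X := by
            intro e he
            rw [mem_cut] at he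
            rw [mem_union]
            by_cases h5 : M.en true e ∈ M.U0 X
            · exact Or.inr (M.mem_As X h5 (fun h => he (iff_of_true h5 h)))
            · exact Or.inl (M.mem_As X (s := false) (by tauto) h5)
          have := (card_le_card d).trans (card_union_le _ _)
          omega
        · have a : univ.filter (fun e => M.en true e = t0) ⊆ M.As false X := by
            intro e he
            have he' := (mem_filter.1 he).2
            refine M.mem_As X (s := true) (he' ▸ ht0) fun h => hU ?_
            exact one_lt_card.2 ⟨_, ht0, _, h, he' ▸ M.en_ne _ _⟩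
          have := card_le_card a
          rw [M.card_fiber true t0 h0] at this
          omega
      have c1 := M.count_As X true
      have c2 := M.count_As X false
      have c3 := M.nc_add (M.U3 X)
      omega
    · push Not at hcon
      obtain ⟨g, hg, x, hx, y, hy, hxy⟩ := hcon
      let X1 := X.filter (fun v => g v = g x)
      let X2 := X.filter (fun v => ¬ g v = g x)
      have c1 : X1.card + X2.card = X.card := card_filter_add_card_filter_not _
      have p1 : 0 < X1.card := card_pos.2 ⟨x, by simp [X1, hx]⟩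
      have p2 : 0 < X2.card := card_pos.2 ⟨y, by simpa [X2, hy] using fun h => hxy h.symm⟩
      have i1 := ih X1 (by omega) (fun v hv => hr v (mem_filter.1 hv).1)
      have i2 := ih X2 (by omega) (fun v hv => hr v (mem_filter.1 hv).1)
      have m1 : M.mX X1 + M.mX X2 = M.mX X := by
        unfold mX
        rw [← card_filter_add_card_filter_not (s := univ.filter (fun e => M.tl e ∈ X))
          (fun e => g (M.tl e) = g x), filter_filter, filter_filter]
        simp [X1, X2]
      have m2 : M.nc true (M.U3 X) ≤ M.nc true (M.U3 X1) + M.nc true (M.U3 X2) := by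
        unfold nc
        refine le_trans (card_le_card ?_) (card_union_le _ _)
        intro t ht
        rw [mem_filter] at ht
        obtain ⟨e, he⟩ := M.en_surj t
        have hg' : ∀ e ∈ M.ed (M.U3 X), g (M.hd e) = g (M.tl e) := by
          intro e he
          obtain ⟨s, hs⟩ := M.mem_ed_iff.1 he
          exact hg e (hS s e hs)
        have hk : ∀ s e', M.en s e' = t → M.tl e' ∈ X ∧ g (M.tl e') = g (M.tl e) := by
          intro s e' h
          refine ⟨(mem_filter.1 ht.1).2 s e' h, ?_⟩
          have h' := h.trans he.symm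
          obtain rfl := M.en_eq_col h'
          exact M.tri_const (M.U3 X) g hg' (he.symm ▸ ht.1) h'
        rw [mem_union, mem_filter, mem_filter]
        by_cases a : g (M.tl e) = g x
        · left
          refine ⟨mem_filter.2 ⟨mem_univ _, fun s e' h => ?_⟩, ht.2⟩
          exact mem_filter.2 ⟨(hk s e' h).1, (hk s e' h).2.trans a⟩
        · right
          refine ⟨mem_filter.2 ⟨mem_univ _, fun s e' h => ?_⟩, ht.2⟩
          exact mem_filter.2 ⟨(hk s e' h).1, by rw [(hk s e' h).2]; exact a⟩
      omega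

def mv (v : V) : ℕ := (univ.filter (fun e => M.tl e = v)).card

omit [Fintype F] [Fintype V] in
lemma mX_eq (X : Finset V) : M.mX X = ∑ v ∈ X, M.mv v := by
  unfold mX mv
  rw [card_eq_sum_card_fiberwise (f := M.tl) (t := X)]
  · refine sum_congr rfl fun v hv => ?_
    congr 1
    ext e
    simp only [mem_filter, mem_univ, true_and]
    exact ⟨fun h => h.2, fun h => ⟨h ▸ hv, h⟩⟩
  · intro e he
    simpa using he

lemma exists_third (h3 : M.Conn3) (h4 : M.Conn4) {t0 : F} (h0 : M.col t0 = true) :
    ∃ a : M.Bl t0 → E, (∀ t, M.en true (a t) = t.1) ∧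
      ∀ v, ¬ M.root t0 v → (univ.filter (fun t => M.tl (a t) = v)).card + 2 ≤ M.mv v := by
  let P : M.Bl t0 → Prop := fun t => ∀ e, M.en true e = t.1 → ¬ M.root t0 (M.tl e)
  let sl : {t // P t} → Finset (Σ _ : V, ℕ) := fun t =>
    (univ.filter (fun v => ∃ e, M.en true e = t.1.1 ∧ M.tl e = v)).sigma
      (fun v => range (M.mv v - 2))
  have hall : ∀ Y : Finset {t // P t}, Y.card ≤ (Y.biUnion sl).card := by
    intro Y
    let X : Finset V := univ.filter (fun v => ∃ t ∈ Y, ∃ e, M.en true e = t.1.1 ∧ M.tl e = v)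
    have e1 : Y.biUnion sl = X.sigma (fun v => range (M.mv v - 2)) := by
      ext ⟨v, i⟩
      simp only [mem_biUnion, sl, mem_sigma, mem_filter, mem_univ, true_and, X]
      constructor
      · rintro ⟨t, ht, h1, h2⟩
        exact ⟨⟨t, ht, h1⟩, h2⟩
      · rintro ⟨⟨t, ht, h1⟩, h2⟩
        exact ⟨t, ht, h1, h2⟩
    have k := M.key h3 h4 h0 _ X le_rfl (by
      intro v hv
      obtain ⟨t, _, e, he, rfl⟩ := (mem_filter.1 hv).2
      exact t.2 e he)
    have k2 : Y.card ≤ M.nc true (M.U3 X) := by
      unfold nc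
      refine card_le_card_of_injOn (fun t => t.1.1) ?_ ?_
      · intro t ht
        simp only [coe_filter, Set.mem_setOf_eq, U3, mem_filter, mem_univ, true_and]
        refine ⟨fun s e he => ?_, t.1.2.1⟩
        obtain rfl : s = true := by rw [← M.col_en s e, he, t.1.2.1]
        exact mem_filter.2 ⟨mem_univ _, t, ht, e, he, rfl⟩
      · intro a _ b _ h
        exact Subtype.ext (Subtype.ext h)
    rw [e1, card_sigma]
    simp only [card_range]
    rw [M.mX_eq] at k
    have k3 : ∑ v ∈ X, M.mv v ≤ ∑ v ∈ X, (M.mv v - 2 + 2) := sum_le_sum fun v _ => by omega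
    rw [sum_add_distrib, sum_const, smul_eq_mul] at k3
    omega
  obtain ⟨f, hf, hfs⟩ := (all_card_le_biUnion_card_iff_exists_injective sl).1 hall
  have hch : ∀ t : M.Bl t0, ∃ e, M.en true e = t.1 ∧
      (∀ h : P t, M.tl e = (f ⟨t, h⟩).1) ∧ (¬ P t → M.root t0 (M.tl e)) := by
    intro t
    by_cases h : P t
    · obtain ⟨e, he, h1⟩ := (mem_filter.1 (mem_sigma.1 (hfs ⟨t, h⟩)).1).2
      exact ⟨e, he, fun _ => h1, fun h' => absurd h h'⟩
    · have h' := h
      simp only [P] at h'
      push Not at h'
      obtain ⟨e, he, h1⟩ := h'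
      exact ⟨e, he, fun h' => absurd h' h, fun _ => h1⟩
  choose a ha1 ha2 ha3 using hch
  refine ⟨a, ha1, fun v hv => ?_⟩
  have k := M.key h3 h4 h0 _ {v} le_rfl (by simpa using hv)
  rw [M.mX_eq, sum_singleton, card_singleton] at k
  have k2 : (univ.filter (fun t => M.tl (a t) = v)).card ≤ (range (M.mv v - 2)).card := by
    have hP : ∀ t, M.tl (a t) = v → P t := by
      intro t ht
      by_contra h
      exact hv (ht ▸ ha3 t h)
    refine card_le_card_of_injOn (fun t => if h : P t then (f ⟨t, h⟩).2 else 0) ?_ ?_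
    · intro t ht
      have ht' : M.tl (a t) = v := by simpa using ht
      have h := hP t ht'
      simp only [dif_pos h]
      have := (mem_sigma.1 (hfs ⟨t, h⟩)).2
      rw [← ha2 t h, ht'] at this
      exact this
    · intro t ht t' ht' h
      have g1 : M.tl (a t) = v := by simpa using ht
      have g2 : M.tl (a t') = v := by simpa using ht'
      have h1 := hP t g1
      have h2 := hP t' g2
      simp only [dif_pos h1, dif_pos h2] at h
      have : f ⟨t, h1⟩ = f ⟨t', h2⟩ := by
        refine Sigma.ext ?_ (heq_of_eq h)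
        rw [← ha2 t h1, ← ha2 t' h2, g1, g2]
      exact congrArg Subtype.val (hf this)
  rw [card_range] at k2
  omega

theorem exists_valid (h3 : M.Conn3) (hE : M.Euler) (h4 : M.Conn4) {t0 : F}
    (h0 : M.col t0 = true) : ∃ (l : M.Bl t0 → E) (η : M.Bl t0 → Bool), M.Valid l η := by
  obtain ⟨a, ha, hm⟩ := M.exists_third h3 h4 h0
  have hainj : Function.Injective a := by
    intro t t' h
    apply Subtype.ext
    rw [← ha, ← ha, h]
  let R : Finset E := univ.filter (fun e => M.en true e ≠ t0 ∧ e ∉ univ.image a)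
  have hR : R.card = 2 * Fintype.card (M.Bl t0) := by
    have e1 := card_filter_add_card_filter_not (s := univ) (fun e => M.en true e = t0)
    rw [M.card_fiber true t0 h0, card_univ, M.card_E true] at e1
    have e2 := card_filter_add_card_filter_not
      (s := univ.filter (fun e => ¬ M.en true e = t0)) (fun e => e ∈ univ.image a)
    have e3 : (univ.filter (fun e => ¬ M.en true e = t0)).filter (fun e => e ∈ univ.image a)
        = univ.image a := by
      ext e
      simp only [mem_filter, mem_univ, true_and, and_iff_right_iff_imp]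
      intro he
      obtain ⟨t, _, rfl⟩ := mem_image.1 he
      rw [ha]; exact t.2.2
    rw [e3, card_image_of_injective _ hainj, card_univ, filter_filter] at e2
    have e4 := M.card_Bl t0 h0
    change R.card = _
    simp only [R, ne_eq]
    omega
  let r : V → ℕ := fun v => (R.filter (fun e => M.tl e = v)).card
  have hr1 : ∑ v, r v = R.card := (card_eq_sum_card_fiberwise (fun _ _ => mem_univ _)).symm
  have hr2 : ∀ v, ¬ M.root t0 v → 2 ≤ r v := by
    intro v hv
    have k := hm v hv
    have k2 : univ.filter (fun e => M.tl e = v) ⊆ R.filter (fun e => M.tl e = v)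
        ∪ (univ.filter (fun t => M.tl (a t) = v)).image a := by
      intro e he
      have he' := (mem_filter.1 he).2
      rw [mem_union]
      by_cases h : e ∈ univ.image a
      · right
        obtain ⟨t, _, rfl⟩ := mem_image.1 h
        exact mem_image_of_mem _ (by simpa using he')
      · left
        exact mem_filter.2 ⟨mem_filter.2 ⟨mem_univ _, fun h' => hv ⟨e, h', he'⟩, h⟩, he'⟩
    have k3 := (card_le_card k2).trans (card_union_le _ _)
    rw [card_image_of_injective _ hainj] at k3
    unfold mv at k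
    simp only [r]
    omega
  have hr3 : ∀ v, r v = if M.root t0 v then 0 else 2 := by
    have k1 : ∀ v ∈ univ, (if M.root t0 v then 0 else 2) ≤ r v := by
      intro v _
      split_ifs with h
      · exact Nat.zero_le _
      · exact hr2 v h
    have k2 : ∑ v, (if M.root t0 v then 0 else 2) = ∑ v, r v := by
      rw [hr1, hR, sum_ite, sum_const_zero, zero_add, sum_const, M.card_nonroot h3 hE t0 h0,
        smul_eq_mul, mul_comm]
    intro v
    exact ((sum_eq_sum_iff_of_le k1).1 k2 v (mem_univ _)).symm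
  let l : M.Bl t0 → E := fun t => M.nx true (a t)
  let cr : M.Bl t0 → Bool → E := fun t β => if β = true then l t else M.nx true (l t)
  have cr1 : ∀ t β, M.en true (cr t β) = t.1 := by
    intro t β
    cases β <;> simp [cr, l, M.en_nx, ha]
  have cr2 : ∀ t β, cr t β ∈ R := by
    intro t β
    refine mem_filter.2 ⟨mem_univ _, by rw [cr1]; exact t.2.2, fun h => ?_⟩
    obtain ⟨t', _, h1⟩ := mem_image.1 h
    have : t' = t := Subtype.ext (by rw [← ha, h1, cr1])
    subst this
    cases β
    · exact M.nx2_ne true _ (by simpa [cr, l] using h1.symm)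
    · exact M.nx_ne true _ (by simpa [cr, l] using h1.symm)
  have cr3 : ∀ t β t' β', cr t β = cr t' β' → t = t' ∧ β = β' := by
    intro t β t' β' h
    have : t = t' := Subtype.ext (by rw [← cr1 t β, h, cr1])
    subst this
    refine ⟨rfl, ?_⟩
    cases β <;> cases β'
    · rfl
    · exact absurd (by simpa [cr] using h) (M.nx_ne true (l t))
    · exact absurd (by simpa [cr] using h.symm) (M.nx_ne true (l t))
    · rfl
  have cr4 : ∀ t β, ¬ M.root t0 (M.tl (cr t β)) := by
    intro t β h
    have := hr3 (M.tl (cr t β))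
    rw [if_pos h, card_eq_zero] at this
    have h2 : cr t β ∈ R.filter (fun e => M.tl e = M.tl (cr t β)) := mem_filter.2 ⟨cr2 t β, rfl⟩
    rw [this] at h2
    simp at h2
  let N : M.Bl t0 → Finset V := fun t => {M.tl (cr t true), M.tl (cr t false)}
  have hall : ∀ Y : Finset (M.Bl t0), Y.card ≤ (Y.biUnion N).card := by
    intro Y
    have k1 : (Y ×ˢ (univ : Finset Bool)).card
        ≤ (R.filter (fun e => M.tl e ∈ Y.biUnion N)).card := by
      refine card_le_card_of_injOn (fun p => cr p.1 p.2) ?_ ?_
      · rintro ⟨t, β⟩ h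
        have ht : t ∈ Y := by simpa using h
        simp only [coe_filter, Set.mem_setOf_eq]
        refine ⟨cr2 t β, mem_biUnion.2 ⟨t, ht, ?_⟩⟩
        cases β <;> simp [N]
      · rintro ⟨t, β⟩ _ ⟨t', β'⟩ _ h
        obtain ⟨rfl, rfl⟩ := cr3 _ _ _ _ h
        rfl
    have k2 : (R.filter (fun e => M.tl e ∈ Y.biUnion N)).card ≤ ∑ v ∈ Y.biUnion N, 2 := by
      rw [card_eq_sum_card_fiberwise (f := M.tl) (t := Y.biUnion N)
        (fun e he => by simpa using (mem_filter.1 he).2)]
      refine sum_le_sum fun v _ => ?_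
      refine le_trans (card_le_card (t := R.filter (fun e => M.tl e = v)) ?_) ?_
      · intro e he
        simp only [mem_filter] at he ⊢
        exact ⟨he.1.1, he.2⟩
      · have := hr3 v
        simp only [r] at this
        rw [this]; split_ifs <;> omega
    rw [card_product, card_univ, Fintype.card_bool] at k1
    rw [sum_const, smul_eq_mul] at k2
    omega
  obtain ⟨φ, hφ, hφN⟩ := (all_card_le_biUnion_card_iff_exists_injective N).1 hall
  have hη : ∀ t, ∃ β, M.tl (cr t β) = φ t := by
    intro t
    have := hφN t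
    simp only [N, mem_insert, mem_singleton] at this
    rcases this with h | h
    · exact ⟨_, h.symm⟩
    · exact ⟨_, h.symm⟩
  choose η hη using hη
  have s1 : ∀ t, M.src l η t = cr t (η t) := fun t => rfl
  have s2 : ∀ t, M.dst l η t = cr t (!η t) := by
    intro t
    cases h : η t <;> simp [dst, cr, h]
  have g1 : M.Good t0 (M.src l η) := by
    refine ⟨fun t => cr1 _ _, fun t => cr4 _ _, fun t t' h => hφ ?_⟩
    rw [← hη, ← hη]; exact h
  refine ⟨l, η, g1, fun t => by rw [s2, cr1], fun t => by rw [s2]; exact cr4 _ _,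
    fun t t' h => ?_⟩
  simp only [s2] at h
  by_contra hne
  obtain ⟨u, hu⟩ := g1.surj h3 hE h0 _ (cr4 t (!η t))
  rw [s1] at hu
  have k := hr3 (M.tl (cr t (!η t)))
  rw [if_neg (cr4 _ _)] at k
  have k2 : 2 < r (M.tl (cr t (!η t))) := by
    refine two_lt_card_iff.2 ⟨cr t (!η t), cr t' (!η t'), cr u (η u), mem_filter.2 ⟨cr2 _ _, rfl⟩,
      mem_filter.2 ⟨cr2 _ _, h.symm⟩, mem_filter.2 ⟨cr2 _ _, hu⟩, fun h' => hne (cr3 _ _ _ _ h').1,
      fun h' => ?_, fun h' => ?_⟩
    · obtain ⟨rfl, h2⟩ := cr3 _ _ _ _ h'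
      simp at h2
    · obtain ⟨rfl, h2⟩ := cr3 _ _ _ _ h'
      simp at h2
  omega

end Mp

end Vale.Agent.P039
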