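import Vale.Agent.P039.Sum
import Vale.Agent.P039.Hall

open Finset
open scoped Classical

noncomputable section

namespace Vale.Agent.P039

variable {F E V : Type} [Fintype F] [Fintype E] [Fintype V]

namespace Mp

variable (M : Mp F E V)

def Ham (Mt : Finset E) : Prop :=
  (∀ s e, ∃ e' ∈ Mt, M.en s e' = M.en s e) ∧
    (∀ s, ∀ e ∈ Mt, ∀ e' ∈ Mt, M.en s e = M.en s e' → e = e') ∧
    ∀ f : F → ℚ, (∀ e, e ∉ Mt → f (M.en true e) = f (M.en false e)) → ∀ x y, f x = f y

lemma rigid (h3 : M.Conn3) (hE : M.Euler) {t0 : F} (h0 : M.col t0 = true)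
    {b : M.Bl t0 → E} (hb : M.Good t0 b) (hd : (M.Nm b).det ≠ 0) (g : V → ℚ)
    (h1 : ∀ e, M.en true e = t0 → M.dv g e = 0) (h2 : ∀ t, M.dv g (M.nx true (b t)) = 0) (e : E) :
    M.dv g e = 0 := by
  obtain ⟨e0, he0⟩ := M.en_surj t0
  rw [h0] at he0
  let g' : V → ℚ := fun v => g v - g (M.tl e0)
  have r1 : ∀ v, M.root t0 v → g' v = 0 := by
    rintro v ⟨e, he, rfl⟩
    have a := h1 e0 he0
    have c := h1 (M.nx true e0) (by rw [M.en_nx, he0])
    unfold dv Mp.hd at a c
    rcases M.fib true e0 e (he.trans he0.symm) with rfl | rfl | rfl <;> simp only [g'] <;> linarith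
  have r2 : ∀ v, ∑ t', g' (M.tl (b t')) * (if M.tl (b t') = v then 1 else 0) = g' v := by
    intro v
    by_cases hv : M.root t0 v
    · rw [r1 v hv]
      refine sum_eq_zero fun t' _ => ?_
      rw [if_neg, mul_zero]
      rintro rfl
      exact hb.2.1 _ hv
    · obtain ⟨t, rfl⟩ := hb.surj h3 hE h0 v hv
      rw [sum_eq_single t]
      · simp
      · intro t' _ ht
        rw [if_neg (fun h => ht (hb.2.2 h)), mul_zero]
      · simp
  have r3 : (fun t' => g' (M.tl (b t'))) = 0 := by
    refine Matrix.eq_zero_of_vecMul_eq_zero hd ?_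
    funext t
    simp only [Matrix.vecMul, dotProduct, Nm, Fintype.sum_bool, mul_add, sum_add_distrib,
      mul_left_comm _ (sg _), ← mul_sum, r2]
    have := h2 t
    unfold dv Mp.hd at this
    simp [sg, cn, g']
    linarith
  have r4 : ∀ v, g' v = 0 := by
    intro v
    by_cases hv : M.root t0 v
    · exact r1 v hv
    · obtain ⟨t, rfl⟩ := hb.surj h3 hE h0 v hv
      exact congrFun r3 t
  have a := r4 (M.hd e)
  have c := r4 (M.tl e)
  unfold dv
  simp only [g'] at a c
  linarith

lemma exists_child (h3 : M.Conn3) (hE : M.Euler) {t0 : F} (h0 : M.col t0 = true)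
    {b : M.Bl t0 → E} (hb : M.Good t0 b) (hd : (M.Nm b).det ≠ 0) (w0 : F) :
    ∃ ch : M.Bl t0 → E, (∀ t, ch t = b t ∨ ch t = M.nx true (M.nx true (b t))) ∧
      (∀ t, M.en false (ch t) ≠ w0) ∧ Function.Injective (fun t => M.en false (ch t)) := by
  have hc := Conn3.conn M h3
  let b2 : M.Bl t0 → E := fun t => M.nx true (M.nx true (b t))
  have hb2 : ∀ t, M.en true (b2 t) = t.1 := fun t => by simp [b2, M.en_nx, hb.1]
  let N : M.Bl t0 → Finset F := fun t => ({M.en false (b t), M.en false (b2 t)} : Finset F).erase w0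
  let ψ : (M.Bl t0 → ℚ) → F → ℚ := fun c x => ∑ t, c t *
    ((if M.en false (b t) = x then 1 else 0) - (if M.en false (b2 t) = x then 1 else 0))
  have hψ : ∀ c (h : F → ℚ), ∑ x, h x * ψ c x
      = ∑ t, c t * (h (M.en false (b t)) - h (M.en false (b2 t))) := by
    intro c h
    simp only [ψ, mul_sum]
    rw [sum_comm]
    refine sum_congr rfl fun t _ => ?_
    simp only [mul_left_comm (h _), ← mul_sum]
    simp [mul_sub, sum_sub_distrib]
  have hker : ∀ c, (∀ x, x ≠ w0 → ψ c x = 0) → c = 0 := by
    intro c hc0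
    have k1 : ψ c w0 = 0 := by
      have := hψ c (fun _ => 1)
      simp only [one_mul, sub_self, mul_zero, sum_const_zero] at this
      rwa [sum_eq_single w0 (fun x _ hx => hc0 x hx) (by simp)] at this
    have k2 : ∀ x, ψ c x = 0 := by
      intro x
      by_cases hx : x = w0
      · rw [hx, k1]
      · exact hc0 x hx
    let y : E → ℚ := fun e => ∑ t, c t * ((if e = b t then 1 else 0) - (if e = b2 t then 1 else 0))
    obtain ⟨g, hg⟩ := M.coflow_exact hc hE t0 y (by
      intro h
      have := hψ c h
      simp only [k2, mul_zero, sum_const_zero] at this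
      simp only [y, sum_mul]
      rw [sum_comm, ← neg_eq_zero, ← sum_neg_distrib]
      refine Eq.trans (sum_congr rfl fun t _ => ?_) this.symm
      simp only [mul_assoc, ← mul_sum]
      simp [sub_mul, sum_sub_distrib, dl, hb.1, hb2]
      ring)
    have k3 := M.rigid h3 hE h0 hb hd g (by
      intro e he
      rw [← hg]
      refine sum_eq_zero fun t _ => ?_
      rw [if_neg, if_neg]
      · simp
      · rintro rfl; exact t.2.2 ((hb2 t).symm.trans he)
      · rintro rfl; exact t.2.2 ((hb.1 t).symm.trans he)) (by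
      intro t'
      rw [← hg]
      refine sum_eq_zero fun t _ => ?_
      rw [if_neg, if_neg]
      · simp
      · intro h
        have : t' = t := Subtype.ext (by rw [← hb2 t, ← h, M.en_nx, hb.1])
        subst this
        exact M.nx_ne true _ h.symm
      · intro h
        have : t' = t := Subtype.ext (by rw [← hb.1 t, ← h, M.en_nx, hb.1])
        subst this
        exact M.nx_ne true _ h)
    funext t'
    have k4 := k3 (b t')
    rw [← hg] at k4
    simp only [y] at k4
    rw [sum_eq_single t', if_pos rfl, if_neg] at k4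
    · simpa using k4
    · exact fun h => M.nx2_ne true _ h.symm
    · intro t _ ht
      rw [if_neg, if_neg]
      · simp
      · intro h
        exact ht (Subtype.ext (by rw [← hb2 t, ← h, hb.1]))
      · intro h
        exact ht (Subtype.ext (by rw [← hb.1 t, ← h, hb.1]))
    · simp
  have hall : ∀ Y : Finset (M.Bl t0), Y.card ≤ (Y.biUnion N).card := by
    intro Y
    let Φ : (Y → ℚ) →ₗ[ℚ] ((Y.biUnion N) → ℚ) :=
      { toFun := fun c x => ψ (ext Y c) x
        map_add' := by
          intro a a'
          funext x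
          simp [ψ, add_mul, sum_add_distrib]
        map_smul' := by
          intro r a
          funext x
          simp [ψ, mul_sum, mul_assoc] }
    have hinj : Function.Injective Φ := by
      rw [injective_iff_map_eq_zero]
      intro c hc0
      have := hker (ext Y c) (by
        intro x hx
        by_cases hm : x ∈ Y.biUnion N
        · exact congrFun hc0 ⟨x, hm⟩
        · refine sum_eq_zero fun t _ => ?_
          by_cases ht : t ∈ Y
          · rw [if_neg, if_neg]
            · simp
            · rintro rfl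
              exact hm (mem_biUnion.2 ⟨t, ht, by simp [N, hx]⟩)
            · rintro rfl
              exact hm (mem_biUnion.2 ⟨t, ht, by simp [N, hx]⟩)
          · simp [ext, ht])
      funext t
      simpa [ext] using congrFun this t
    have := LinearMap.finrank_le_finrank_of_injective hinj
    simpa only [Module.finrank_fintype_fun_eq_card, Fintype.card_coe] using this
  obtain ⟨φ, hφ, hφN⟩ := (all_card_le_biUnion_card_iff_exists_injective N).1 hall
  have : ∀ t, ∃ e, (e = b t ∨ e = b2 t) ∧ M.en false e = φ t := by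
    intro t
    have := hφN t
    simp only [N, mem_erase, mem_insert, mem_singleton] at this
    rcases this.2 with h | h
    · exact ⟨_, Or.inl rfl, h.symm⟩
    · exact ⟨_, Or.inr rfl, h.symm⟩
  choose ch h1 h2 using this
  refine ⟨ch, h1, fun t => ?_, fun t t' h => hφ ?_⟩
  · rw [h2]; exact (mem_erase.1 (hφN t)).1
  · rw [← h2, ← h2]; exact h

theorem core (h3 : M.Conn3) (hE : M.Euler) (h4 : M.Conn4) (e0 : E) :
    ∃ Mt, e0 ∈ Mt ∧ M.Ham Mt := by
  have hc := Conn3.conn M h3
  have h0 := M.col_en true e0
  set t0 := M.en true e0 with ht0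
  obtain ⟨l, η, hv⟩ := M.exists_valid h3 hE h4 h0
  obtain ⟨b, hb, hd⟩ := M.exists_good_det h3 hE h0 hv
  obtain ⟨ch, c1, c2, c3⟩ := M.exists_child h3 hE h0 hb hd (M.en false e0)
  have c4 : ∀ t, M.en true (ch t) = t.1 := by
    intro t
    rcases c1 t with h | h <;> simp [h, M.en_nx, hb.1]
  have c5 : ∀ t, M.tl (b t) = M.tl (ch t) ∨ M.tl (b t) = M.hd (ch t) := by
    intro t
    rcases c1 t with h | h <;> simp [h, Mp.hd, M.nx3]
  have c6 : Function.Injective ch := fun t t' h => Subtype.ext (by rw [← c4, h, c4])
  let Mt : Finset E := insert e0 (univ.image ch)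
  have hm : ∀ e, e ∈ Mt ↔ e = e0 ∨ ∃ t, ch t = e := by simp [Mt]
  have u1 : ∀ s, ∀ e ∈ Mt, ∀ e' ∈ Mt, M.en s e = M.en s e' → e = e' := by
    intro s e he e' he' h
    rcases (hm e).1 he with rfl | ⟨t, rfl⟩ <;> rcases (hm e').1 he' with rfl | ⟨t', rfl⟩
    · rfl
    · cases s
      · exact absurd h.symm (c2 t')
      · rw [c4] at h; exact absurd h.symm t'.2.2
    · cases s
      · exact absurd h (c2 t)
      · rw [c4] at h; exact absurd h t.2.2
    · cases s
      · rw [c3 h]
      · rw [c4, c4] at h; rw [Subtype.ext h]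
  have hcard : Mt.card = M.nc true univ := by
    rw [card_insert_of_notMem, card_image_of_injective _ c6, card_univ, M.card_Bl t0 h0]
    intro h
    obtain ⟨t, _, h⟩ := mem_image.1 h
    exact c2 t (by rw [h])
  have u2 : ∀ s e, ∃ e' ∈ Mt, M.en s e' = M.en s e := by
    intro s e
    have k : Mt.image (M.en s) = univ.filter (fun x => M.col x = s) := by
      apply eq_of_subset_of_card_le
      · intro x hx
        obtain ⟨e, _, rfl⟩ := mem_image.1 hx
        simp [M.col_en]
      · rw [card_image_of_injOn (fun a ha a' ha' h => u1 s a ha a' ha' h), hcard]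
        have a := M.card_E true
        have a' := M.card_E s
        unfold nc at a a' ⊢
        omega
    have : M.en s e ∈ Mt.image (M.en s) := by rw [k]; simp [M.col_en]
    exact mem_image.1 this
  refine ⟨Mt, mem_insert_self _ _, u2, u1, ?_⟩
  let C : Finset F := univ.filter (fun x => ∀ f : F → ℚ,
    (∀ e, e ∉ Mt → f (M.en true e) = f (M.en false e)) → f x = f t0)
  have hC : ∀ x, x ∈ C ↔ ∀ f : F → ℚ,
    (∀ e, e ∉ Mt → f (M.en true e) = f (M.en false e)) → f x = f t0 := by simp [C]
  suffices hall : ∀ x, x ∈ C by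
    intro f hf x y
    rw [(hC x).1 (hall x) f hf, (hC y).1 (hall y) f hf]
  intro x1
  by_contra hx1
  have hcl : ∀ e, e ∉ Mt → (M.en true e ∈ C ↔ M.en false e ∈ C) := by
    intro e he
    simp only [hC]
    exact ⟨fun h f hf => (hf e he).symm.trans (h f hf), fun h f hf => (hf e he).trans (h f hf)⟩
  have ht0C : t0 ∈ C := (hC t0).2 fun _ _ => rfl
  let K := univ.filter (fun t => ch t ∈ M.ed C)
  have i1 := M.lemA hc C x1 hx1 (M.ed C) (fun s e he => M.mem_ed he)
    (K.image (fun t => M.tl (b t)) ∪ univ.filter (M.root t0)) (by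
      intro g hg
      choose r hr using M.en_surj
      let f : F → ℚ := fun x => if x ∈ C then g (M.tl (r x)) else 0
      have h1 : ∀ s e, M.en s e ∈ C → f (M.en s e) = g (M.tl e) := by
        intro s e he
        simp only [f, if_pos he]
        refine M.tri_const C g hg he ?_
        have := hr (M.en s e)
        rwa [M.col_en] at this
      have h2 : ∀ e, e ∉ Mt → f (M.en true e) = f (M.en false e) := by
        intro e he
        by_cases a : M.en true e ∈ C
        · rw [h1 _ _ a, h1 _ _ ((hcl e he).1 a)]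
        · have a' : M.en false e ∉ C := fun h => a ((hcl e he).2 h)
          simp [f, a, a']
      have h5 : ∀ e ∈ M.ed C, g (M.tl e) = f t0 := by
        intro e he
        obtain ⟨s, hs⟩ := M.mem_ed_iff.1 he
        rw [← h1 s e hs]
        exact (hC _).1 hs f h2
      have h6 : ∀ x ∈ K.image (fun t => M.tl (b t)) ∪ univ.filter (M.root t0), g x = f t0 := by
        intro x hx
        rcases mem_union.1 hx with hx | hx
        · obtain ⟨t, ht, rfl⟩ := mem_image.1 hx
          have ht' := (mem_filter.1 ht).2
          rcases c5 t with h | h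
          · rw [h, h5 _ ht']
          · rw [h, hg _ ht', h5 _ ht']
        · obtain ⟨e, he, rfl⟩ := (mem_filter.1 hx).2
          exact h5 e (M.mem_ed (s := true) (he ▸ ht0C))
      intro x hx y hy
      rw [h6 x hx, h6 y hy])
  rw [card_union_of_disjoint, card_image_of_injective _ hb.2.2, M.card_root h3 hE t0 h0] at i1
  swap
  · rw [disjoint_left]
    intro v h1 h2
    obtain ⟨t, _, rfl⟩ := mem_image.1 h1
    exact hb.2.1 t (mem_filter.1 h2).2
  have i2 := card_filter_add_card_filter_not (s := M.ed C) (fun e => e ∈ Mt)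
  have i3 : ((M.ed C).filter (fun e => e ∈ Mt)).card ≤ K.card + 1 := by
    refine le_trans (card_le_card (t := insert e0 (K.image ch)) ?_) ?_
    · intro e he
      rw [mem_filter] at he
      rcases (hm e).1 he.2 with rfl | ⟨t, rfl⟩
      · exact mem_insert_self _ _
      · exact mem_insert_of_mem (mem_image_of_mem _ (by simpa [K] using he.1))
    · exact (card_insert_le _ _).trans (Nat.succ_le_succ card_image_le)
  have i4 : ∀ s, ((M.ed C).filter (fun e => ¬ e ∈ Mt)).card ≤ 2 * M.nc s C := by
    intro s
    have a := card_filter_add_card_filter_not (s := univ.filter (fun e => M.en s e ∈ C))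
      (fun e => e ∈ Mt)
    rw [M.card_en_mem] at a
    have a1 : ((M.ed C).filter (fun e => ¬ e ∈ Mt)).card
        ≤ ((univ.filter (fun e => M.en s e ∈ C)).filter (fun e => ¬ e ∈ Mt)).card := by
      refine card_le_card fun e he => ?_
      simp only [mem_filter, mem_univ, true_and, ed] at he ⊢
      have := hcl e he.2
      cases s <;> tauto
    have a2 : M.nc s C ≤ ((univ.filter (fun e => M.en s e ∈ C)).filter (fun e => e ∈ Mt)).card := by
      unfold nc
      refine card_le_card_of_surjOn (M.en s) fun x hx => ?_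
      simp only [coe_filter, Set.mem_setOf_eq] at hx
      obtain ⟨e, he⟩ := M.en_surj x
      rw [hx.2] at he
      obtain ⟨e', h1, h2⟩ := u2 s e
      exact ⟨e', by simp [h1, h2, he, hx.1], h2.trans he⟩
    unfold nc at a2 ⊢
    omega
  have i5 := i4 true
  have i6 := i4 false
  have i7 := M.nc_add C
  omega

end Mp

end Vale.Agent.P039
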