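import Mathlib

namespace Vale.Agent.P039

/-- A rotation system: a cyclic ordering of the darts leaving each vertex, given by one
permutation of the darts whose cycles are exactly the sets of darts with a common tail. -/
structure RotationSystem {α : Type} (G : SimpleGraph α) where
  rot : Equiv.Perm G.Dart
  fst_rot : ∀ d, (rot d).fst = d.fst
  cyclic : ∀ d d' : G.Dart, d.fst = d'.fst → rot.SameCycle d d'

/-- Reversal of darts, as a permutation. -/
def reverse {α : Type} (G : SimpleGraph α) : Equiv.Perm G.Dart :=
  Function.Involutive.toPerm SimpleGraph.Dart.symm SimpleGraph.Dart.symm_involutive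

/-- The number of faces of the embedding given by a rotation system: the number of cycles
(orbits) of the face-tracing permutation (reverse the dart, then rotate). -/
noncomputable def RotationSystem.faceCount {α : Type} {G : SimpleGraph α}
    (R : RotationSystem G) : ℕ :=
  Nat.card (Quotient (Equiv.Perm.SameCycle.setoid (R.rot * reverse G)))

/-- Planarity of a connected graph with at least one edge: some rotation system has genus zero,
that is `V - E + F = 2`. -/
def IsPlanarConn {α : Type} (G : SimpleGraph α) : Prop :=
  ∃ R : RotationSystem G, Nat.card α + R.faceCount = Nat.card G.edgeSet + 2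

/-- At least four vertices, and deleting at most two vertices leaves a connected graph. -/
def ThreeConnected {α : Type} (G : SimpleGraph α) : Prop :=
  4 ≤ Nat.card α ∧ ∀ S : Set α, S.ncard ≤ 2 → (G.induce Sᶜ).Connected

end Vale.Agent.P039
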