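import Vale.Agent.P039.Core

open Finset
open scoped Classical

noncomputable section

namespace Vale.Agent.P039

variable {F E V : Type} [Fintype F] [Fintype E] [Fintype V]

lemma tri_cyc {V : Type} (a1 a2 a3 b1 b2 b3 : V) (h1 : b1 ≠ a1) (h2 : b2 ≠ a2) (h3 : b3 ≠ a3)
    (h : ∀ g : V → ℚ, g b1 + g b2 + g b3 = g a1 + g a2 + g a3) :
    (b1 = a2 ∧ b2 = a3 ∧ b3 = a1) ∨ (b1 = a3 ∧ b3 = a2 ∧ b2 = a1) := by
  have H := fun v => h (fun x => if x = v then 1 else 0)
  have k1 := H a1
  have k2 := H a2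
  have k3 := H a3
  simp only [if_true, if_neg h1, if_neg h2, if_neg h3] at k1 k2 k3
  have d12 : a1 ≠ a2 := by
    rintro rfl
    rw [if_neg h2, if_pos rfl] at k1
    split_ifs at k1 <;> norm_num at k1
  have d13 : a1 ≠ a3 := by
    rintro rfl
    rw [if_neg h3, if_pos rfl] at k1
    split_ifs at k1 <;> norm_num at k1
  have d23 : a2 ≠ a3 := by
    rintro rfl
    rw [if_neg h3, if_pos rfl] at k2
    split_ifs at k2 <;> norm_num at k2
  rw [if_neg d12.symm, if_neg d13.symm] at k1
  rw [if_neg d12, if_neg d23.symm] at k2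
  rw [if_neg d13, if_neg d23] at k3
  by_cases c : b2 = a1
  · have c1 : b1 = a3 := by
      by_contra c1
      rw [if_neg c1, if_neg (c ▸ d13)] at k3
      norm_num at k3
    have c2 : b3 = a2 := by
      by_contra c2
      rw [if_neg c2, if_neg (c1 ▸ d23.symm)] at k2
      norm_num at k2
    exact Or.inr ⟨c1, c2, c⟩
  · have c1 : b3 = a1 := by
      by_contra c1
      rw [if_neg c1, if_neg c] at k1
      norm_num at k1
    have c2 : b1 = a2 := by
      by_contra c2
      rw [if_neg c2, if_neg (c1 ▸ d12)] at k2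
      norm_num at k2
    have c3 : b2 = a3 := by
      by_contra c3
      rw [if_neg c3, if_neg (c2 ▸ d23)] at k3
      norm_num at k3
    exact Or.inl ⟨c2, c3, c1⟩

namespace Mp

variable (M : Mp F E V)

structure IsCut (U : Finset F) (s0 : Bool) (ν : E → E) : Prop where
  out : ∀ e ∈ M.cut U, M.en s0 e ∉ U
  mem : ∀ e ∈ M.cut U, ν e ∈ M.cut U
  tl : ∀ e ∈ M.cut U, M.tl (ν e) = M.hd e
  ne : ∀ e ∈ M.cut U, ν e ≠ e
  three : ∀ e ∈ M.cut U, ν (ν (ν e)) = e
  all : ∀ e ∈ M.cut U, ∀ e' ∈ M.cut U, e' = e ∨ e' = ν e ∨ e' = ν (ν e)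
  card : (M.cut U).card = 3

lemma exists_isCut (h3 : M.Conn3) (hE : M.Euler) (U : Finset F) (hU : (M.cut U).card = 3) :
    ∃ s0 ν, M.IsCut U s0 ν := by
  have e1 := M.card_ed true U
  have e2 := M.card_ed false U
  have e3 := card_filter_add_card_filter_not (s := M.cut U) (fun e => M.en true e ∉ U)
  have e4 : (M.cut U).filter (fun e => ¬ M.en true e ∉ U)
      = (M.cut U).filter (fun e => M.en false e ∉ U) := by
    refine filter_congr fun e he => ?_
    rw [mem_cut] at he; tauto
  rw [e4] at e3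
  have hs : ∃ s0, ∀ e ∈ M.cut U, M.en s0 e ∉ U := by
    have : ((M.cut U).filter (fun e => M.en true e ∉ U)).card = (M.cut U).card ∨
        ((M.cut U).filter (fun e => M.en false e ∉ U)).card = (M.cut U).card := by omega
    rcases this with h | h
    · exact ⟨true, card_filter_eq_iff.1 h⟩
    · exact ⟨false, card_filter_eq_iff.1 h⟩
  obtain ⟨s0, hs0⟩ := hs
  have hflow : ∀ g, ∑ e ∈ M.cut U, M.dv g e = 0 := by
    intro g
    have h1 := M.orth (ind U) g
    rw [← sum_subset (subset_univ (M.cut U))] at h1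
    · have : ∀ e ∈ M.cut U, M.dl (ind U) e * M.dv g e = - sg s0 * M.dv g e := by
        intro e he
        have a := hs0 e he
        rw [mem_cut] at he
        cases s0
        · have : M.en true e ∈ U := by tauto
          simp [dl, ind, sg, a, this]
        · have : M.en false e ∈ U := by tauto
          simp [dl, ind, sg, a, this]
      rw [sum_congr rfl this, ← mul_sum] at h1
      refine (mul_eq_zero.1 h1).resolve_left ?_
      cases s0 <;> simp [sg]
    · intro e _ he
      rw [mem_cut, not_not] at he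
      simp [dl, ind, he]
  have aux : ∀ a b c : E, a ≠ b → a ≠ c → b ≠ c → M.cut U = {a, b, c} → M.hd a = M.tl b →
      M.hd b = M.tl c → M.hd c = M.tl a → ∃ ν, M.IsCut U s0 ν := by
    intro a b c hab hac hbc hcut t1 t2 t3
    refine ⟨fun e => if e = a then b else if e = b then c else a, hs0, ?_, ?_, ?_, ?_, ?_, hU⟩
    all_goals
      rw [hcut]
      simp only [mem_insert, mem_singleton]
      rintro e (rfl | rfl | rfl) <;> simp [hab, hac, hbc, hab.symm, hac.symm, hbc.symm, t1, t2, t3]
  obtain ⟨a, b, c, hab, hac, hbc, hcut⟩ := card_eq_three.1 hU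
  have := tri_cyc (M.tl a) (M.tl b) (M.tl c) (M.hd a) (M.hd b) (M.hd c) (M.noloop h3 hE a)
    (M.noloop h3 hE b) (M.noloop h3 hE c) (by
      intro g
      have := hflow g
      rw [hcut, sum_insert (by simp [hab, hac]), sum_insert (by simp [hbc]), sum_singleton] at this
      unfold dv at this
      linarith)
  rcases this with ⟨t1, t2, t3⟩ | ⟨t1, t2, t3⟩
  · exact ⟨s0, aux a b c hab hac hbc hcut t1 t2 t3⟩
  · exact ⟨s0, aux a c b hac hab hbc.symm (by rw [hcut, pair_comm]) t1 t2 t3⟩

omit [Fintype V] in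
lemma IsCut.compl {M : Mp F E V} {U : Finset F} {s0 : Bool} {ν : E → E} (h : M.IsCut U s0 ν) :
    M.IsCut Uᶜ (!s0) ν := by
  refine ⟨?_, ?_, ?_, ?_, ?_, ?_, ?_⟩ <;> rw [M.cut_compl]
  · intro e he
    have a := h.out e he
    rw [mem_cut] at he
    rw [mem_compl, not_not]
    cases s0 <;> simp only [Bool.not_true, Bool.not_false] <;> tauto
  exacts [h.mem, h.tl, h.ne, h.three, h.all, h.card]

omit [Fintype F] [Fintype V] in
lemma IsCut.of_out {M : Mp F E V} {U : Finset F} {s0 : Bool} {ν : E → E} (h : M.IsCut U s0 ν)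
    {e : E} (he : e ∈ M.ed U) {s : Bool} (hs : M.en s e ∉ U) : e ∈ M.cut U ∧ s = s0 := by
  have he' := he
  simp only [ed, mem_filter, mem_univ, true_and] at he'
  have h1 : e ∈ M.cut U := by
    rw [mem_cut]; cases s <;> tauto
  refine ⟨h1, ?_⟩
  have := h.out e h1
  cases s <;> cases s0 <;> tauto

def proj (U : Finset F) (x : F) : Option U := if h : x ∈ U then some ⟨x, h⟩ else none

omit [Fintype F] in
lemma proj_in {U : Finset F} {x : F} (h : x ∈ U) : proj U x = some ⟨x, h⟩ := dif_pos h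

omit [Fintype F] in
lemma proj_out {U : Finset F} {x : F} (h : x ∉ U) : proj U x = none := dif_neg h

omit [Fintype F] in
lemma proj_eq {U : Finset F} {x y : F} (h : x ∈ U) (hxy : proj U y = proj U x) : y = x := by
  rw [proj_in h] at hxy
  by_cases hy : y ∈ U
  · rw [proj_in hy] at hxy
    simpa using hxy
  · rw [proj_out hy] at hxy
    simp at hxy

omit [Fintype F] in
lemma proj_eq_out {U : Finset F} {x y : F} (h : x ∉ U) (hxy : proj U y = proj U x) : y ∉ U := by
  intro hy
  rw [proj_out h, proj_in hy] at hxy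
  simp at hxy

def nxv (U : Finset F) (ν : E → E) (s : Bool) (e : E) : E :=
  if M.en s e ∈ U then M.nx s e else ν e

def VU (U : Finset F) : Finset V := univ.filter (fun v => ∃ e ∈ M.ed U, M.tl e = v)

variable {M}

omit [Fintype F] [Fintype V] in
lemma IsCut.nxv_mem {U : Finset F} {s0 : Bool} {ν : E → E} (h : M.IsCut U s0 ν) (s : Bool)
    {e : E} (he : e ∈ M.ed U) : M.nxv U ν s e ∈ M.ed U := by
  unfold nxv
  split_ifs with a
  · exact M.mem_ed (s := s) (by rw [M.en_nx]; exact a)
  · exact M.cut_sub_ed U (h.mem e (h.of_out he a).1)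

def contract {U : Finset F} {s0 : Bool} {ν : E → E} (h : M.IsCut U s0 ν) :
    Mp (Option U) (M.ed U) (M.VU U) where
  col := fun x => x.elim s0 (fun y => M.col y)
  en := fun s e => proj U (M.en s e)
  nx := fun s e => ⟨M.nxv U ν s e, h.nxv_mem s e.2⟩
  tl := fun e => ⟨M.tl e, mem_filter.2 ⟨mem_univ _, e, e.2, rfl⟩⟩
  col_en := by
    intro s e
    by_cases a : M.en s e ∈ U
    · rw [proj_in a]; exact M.col_en s e
    · rw [proj_out a]; exact (h.of_out e.2 a).2.symm
  en_surj := by
    rintro (_ | x)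
    · obtain ⟨e, he⟩ : (M.cut U).Nonempty := card_pos.1 (by rw [h.card]; norm_num)
      exact ⟨⟨e, M.cut_sub_ed U he⟩, proj_out (h.out e he)⟩
    · obtain ⟨e, he⟩ := M.en_surj x
      refine ⟨⟨e, M.mem_ed (he ▸ x.2)⟩, ?_⟩
      change proj U (M.en (M.col x) e) = _
      rw [he, proj_in x.2]
  en_nx := by
    intro s e
    change proj U (M.en s (M.nxv U ν s e)) = _
    unfold nxv
    split_ifs with a
    · rw [M.en_nx]
    · obtain ⟨h1, rfl⟩ := h.of_out e.2 a
      rw [proj_out a, proj_out (h.out _ (h.mem _ h1))]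
  nx_ne := by
    intro s e he
    have := congrArg Subtype.val he
    change M.nxv U ν s e = e at this
    unfold nxv at this
    split_ifs at this with a
    · exact M.nx_ne _ _ this
    · exact h.ne _ (h.of_out e.2 a).1 this
  nx3 := by
    intro s e
    apply Subtype.ext
    change M.nxv U ν s (M.nxv U ν s (M.nxv U ν s e)) = e
    by_cases a : M.en s e ∈ U
    · simp [nxv, a, M.en_nx, M.nx3]
    · obtain ⟨h1, rfl⟩ := h.of_out e.2 a
      have h2 := h.mem _ h1
      have h3 := h.mem _ h2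
      simp [nxv, a, h.out _ h2, h.out _ h3, h.three _ h1]
  fib := by
    intro s e e' hee
    simp only [Subtype.ext_iff]
    by_cases a : M.en s e ∈ U
    · simpa [nxv, a, M.en_nx] using M.fib s e e' (proj_eq a hee)
    · obtain ⟨h1, rfl⟩ := h.of_out e.2 a
      have h2 := h.mem _ h1
      have h4 := (h.of_out e'.2 (proj_eq_out a hee)).1
      simpa [nxv, a, h.out _ h2] using h.all _ h1 _ h4
  tl_nx := by
    intro e
    have : ∀ s, M.tl (M.nxv U ν s e) = M.hd e := by
      intro s
      unfold nxv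
      split_ifs with a
      · exact M.tl_nx' s e
      · exact h.tl _ (h.of_out e.2 a).1
    apply Subtype.ext
    exact (this false).trans (this true).symm
  tl_surj := by
    rintro ⟨v, hv⟩
    obtain ⟨e, he, rfl⟩ := (mem_filter.1 hv).2
    exact ⟨⟨e, he⟩, rfl⟩

lemma contract_conn3 (h3 : M.Conn3) {U : Finset F} {s0 : Bool} {ν : E → E} (h : M.IsCut U s0 ν) :
    (contract h).Conn3 := by
  intro W hW hW'
  have hsurj : ∀ y : Option U, ∃ x, proj U x = y := by
    rintro (_ | x)
    · obtain ⟨e, he⟩ : (M.cut U).Nonempty := card_pos.1 (by rw [h.card]; norm_num)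
      exact ⟨_, proj_out (h.out e he)⟩
    · exact ⟨x, proj_in x.2⟩
  obtain ⟨y, hy⟩ := hW
  obtain ⟨y', hy'⟩ := hW'
  obtain ⟨x, rfl⟩ := hsurj y
  obtain ⟨x', rfl⟩ := hsurj y'
  have := h3 (univ.filter (fun x => proj U x ∈ W)) ⟨x, by simpa using hy⟩ ⟨x', by simpa using hy'⟩
  refine this.trans ?_
  refine card_le_card_of_surjOn Subtype.val fun e he => ?_
  rw [mem_coe, mem_cut] at he
  simp only [mem_filter, mem_univ, true_and] at he
  have he' : e ∈ M.ed U := by
    by_contra hn
    have a : M.en true e ∉ U := fun a => hn (M.mem_ed a)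
    have b : M.en false e ∉ U := fun a => hn (M.mem_ed a)
    rw [proj_out a, proj_out b] at he
    exact he Iff.rfl
  exact ⟨⟨e, he'⟩, by rw [mem_coe, mem_cut]; exact he, rfl⟩

lemma contract_euler (h3 : M.Conn3) (hE : M.Euler) {U : Finset F} {s0 : Bool} {ν : E → E}
    (h : M.IsCut U s0 ν) (hU : U.Nonempty) : (contract h).Euler := by
  have hc := Conn3.conn M h3
  obtain ⟨x, hx⟩ := hU
  obtain ⟨e0, he0⟩ : (M.cut U).Nonempty := card_pos.1 (by rw [h.card]; norm_num)
  have i1 := M.side_bound hc Uᶜ x (by simpa using hx) (by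
    rw [M.cut_compl]
    intro g hg
    refine ⟨g (M.tl e0), fun e he => ?_⟩
    have a := hg e0 he0
    have b := hg _ (h.mem _ he0)
    rw [← h.tl _ he0] at a
    rw [← h.tl _ (h.mem _ he0)] at b
    rcases h.all _ he0 _ he with rfl | rfl | rfl
    · rfl
    · exact a
    · exact b.trans a) (M.VU Uᶜ) (by
      intro v hv
      obtain ⟨e, he, rfl⟩ := (mem_filter.1 hv).2
      exact ⟨e, he, Or.inl rfl⟩)
  have i2 := card_union_add_card_inter (M.ed U) (M.ed Uᶜ)
  have a1 : M.ed U ∪ M.ed Uᶜ = univ := by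
    ext e
    simp only [ed, mem_union, mem_filter, mem_univ, true_and, mem_compl, iff_true]; tauto
  have a2 : M.ed U ∩ M.ed Uᶜ = M.cut U := by
    ext e
    simp only [ed, mem_inter, mem_filter, mem_univ, true_and, mem_compl, mem_cut]; tauto
  rw [a1, a2, h.card, card_univ] at i2
  have i3 := card_union_add_card_inter (M.VU U) (M.VU Uᶜ)
  have a3 : M.VU U ∪ M.VU Uᶜ = univ := by
    ext v
    obtain ⟨e, rfl⟩ := M.tl_surj v
    have : e ∈ M.ed U ∪ M.ed Uᶜ := by rw [a1]; exact mem_univ _
    simp only [VU, mem_union, mem_filter, mem_univ, true_and, iff_true] at this ⊢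
    rcases this with h1 | h1
    · exact Or.inl ⟨e, h1, rfl⟩
    · exact Or.inr ⟨e, h1, rfl⟩
  have a4 : 3 ≤ (M.VU U ∩ M.VU Uᶜ).card := by
    rw [← h.card]
    refine card_le_card_of_injOn M.tl (fun e he => ?_) (fun e he e' he' hee => ?_)
    · have he' : e ∈ M.ed U ∩ M.ed Uᶜ := by rw [a2]; exact he
      rw [mem_inter] at he'
      simp only [coe_inter, Set.mem_inter_iff, mem_coe, VU, mem_filter, mem_univ, true_and]
      exact ⟨⟨e, he'.1, rfl⟩, ⟨e, he'.2, rfl⟩⟩
    · rcases h.all _ he _ he' with rfl | rfl | rfl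
      · rfl
      · rw [h.tl _ he] at hee
        exact absurd hee.symm (M.noloop h3 hE e)
      · have := h.tl _ he'
        rw [h.three _ he] at this
        exact absurd (this.symm.trans hee) (M.noloop h3 hE _)
  rw [a3, card_univ] at i3
  have i4 := card_add_card_compl U
  unfold Euler at hE ⊢
  simp only [Fintype.card_option, Fintype.card_coe]
  omega

omit [Fintype F] [Fintype V] in
lemma two_count (Mt : Finset E) (P : Finset F) (s : Bool)
    (h1 : ∀ e, M.en s e ∈ P → ∃ e' ∈ Mt, M.en s e' = M.en s e)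
    (h2 : ∀ e ∈ Mt, ∀ e' ∈ Mt, M.en s e ∈ P → M.en s e = M.en s e' → e = e') :
    (univ.filter (fun e => M.en s e ∈ P ∧ e ∉ Mt)).card = 2 * M.nc s P := by
  have a := card_filter_add_card_filter_not (s := univ.filter (fun e => M.en s e ∈ P))
    (fun e => e ∈ Mt)
  rw [M.card_en_mem, filter_filter, filter_filter] at a
  have b : (univ.filter (fun e => M.en s e ∈ P ∧ e ∈ Mt)).card = M.nc s P := by
    unfold nc
    refine card_bij (fun e _ => M.en s e) ?_ ?_ ?_
    · intro e he
      simp only [mem_filter, mem_univ, true_and] at he ⊢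
      exact ⟨he.1, M.col_en s e⟩
    · intro e he e' he' hh
      simp only [mem_filter, mem_univ, true_and] at he he'
      exact h2 e he.2 e' he'.2 he.1 hh
    · intro x hx
      rw [mem_filter] at hx
      obtain ⟨e, he⟩ := M.en_surj x
      rw [hx.2] at he
      obtain ⟨e', k1, k2⟩ := h1 e (he ▸ hx.1)
      exact ⟨e', by simp [k1, k2, he, hx.1], k2.trans he⟩
  unfold nc at b ⊢
  omega

lemma side_ham {U : Finset F} {s0 : Bool} {ν : E → E} (h : M.IsCut U s0 ν)
    (Mt1 : Finset (M.ed U)) (hH : (contract h).Ham Mt1) (Mt : Finset E)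
    (hMt : ∀ e (he : e ∈ M.ed U), e ∈ Mt ↔ (⟨e, he⟩ : M.ed U) ∈ Mt1) (ec : E) (hec : ec ∈ M.cut U)
    (hec' : ec ∈ Mt) :
    (∀ s e, M.en s e ∈ U → ∃ e' ∈ Mt, M.en s e' = M.en s e) ∧
      (∀ s, ∀ e ∈ Mt, ∀ e' ∈ Mt, M.en s e ∈ U → M.en s e = M.en s e' → e = e') ∧ ν ec ∉ Mt ∧
      ∀ f : F → ℚ, (∀ e, e ∉ Mt → f (M.en true e) = f (M.en false e)) →
        ∀ x ∈ U, ∀ y ∈ U, f x = f y := by
  have p1 : ∀ s e, M.en s e ∈ U → ∃ e' ∈ Mt, M.en s e' = M.en s e := by
    intro s e he
    obtain ⟨e', k1, k2⟩ := hH.1 s ⟨e, M.mem_ed he⟩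
    exact ⟨e', (hMt e' e'.2).2 k1, proj_eq he k2⟩
  have p2 : ∀ s, ∀ e ∈ Mt, ∀ e' ∈ Mt, M.en s e ∈ U → M.en s e = M.en s e' → e = e' := by
    intro s e he e' he' hU hee
    have a := M.mem_ed hU
    have a' : e' ∈ M.ed U := M.mem_ed (hee ▸ hU)
    exact congrArg Subtype.val (hH.2.1 s _ ((hMt e a).1 he) _ ((hMt e' a').1 he')
      (congrArg (proj U) hee))
  have p3 : ∀ e ∈ M.cut U, e ∈ Mt → e = ec := by
    intro e he he'
    have a := M.cut_sub_ed U he
    have a' := M.cut_sub_ed U hec
    refine congrArg Subtype.val (hH.2.1 s0 _ ((hMt e a).1 he') _ ((hMt ec a').1 hec') ?_)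
    change proj U _ = proj U _
    rw [proj_out (h.out _ he), proj_out (h.out _ hec)]
  have m2 := h.mem _ hec
  have m3 := h.mem _ m2
  have n2 : ν ec ∉ Mt := fun a => h.ne _ hec (p3 _ m2 a)
  refine ⟨p1, p2, n2, fun f hf => ?_⟩
  have hin : ∀ e ∈ M.cut U, M.en (!s0) e ∈ U := by
    intro e he
    have := h.compl.out e (by rw [M.cut_compl]; exact he)
    simpa using this
  have hf' : ∀ e, e ∉ Mt → f (M.en s0 e) = f (M.en (!s0) e) := by
    intro e he
    cases s0
    · exact (hf e he).symm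
    · exact hf e he
  have par : f (M.en (!s0) (ν (ν ec))) = f (M.en (!s0) (ν ec)) := by
    by_contra hne
    let P := U.filter (fun x => f x = f (M.en (!s0) (ν ec)))
    have c := fun s => two_count Mt P s (fun e he => p1 s e (mem_filter.1 he).1)
      (fun e he e' he' hP => p2 s e he e' he' (mem_filter.1 hP).1)
    have k : univ.filter (fun e => M.en (!s0) e ∈ P ∧ e ∉ Mt)
        = insert (ν ec) (univ.filter (fun e => M.en s0 e ∈ P ∧ e ∉ Mt)) := by
      ext e
      simp only [mem_filter, mem_univ, true_and, mem_insert, P]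
      constructor
      · rintro ⟨⟨k1, k2⟩, k3⟩
        by_cases a : M.en s0 e ∈ U
        · exact Or.inr ⟨⟨a, (hf' e k3).trans k2⟩, k3⟩
        · rcases h.all _ hec _ (h.of_out (M.mem_ed k1) a).1 with rfl | rfl | rfl
          · exact absurd hec' k3
          · exact Or.inl rfl
          · exact absurd k2 hne
      · rintro (rfl | ⟨⟨k1, k2⟩, k3⟩)
        · exact ⟨⟨hin _ m2, rfl⟩, n2⟩
        · refine ⟨⟨?_, (hf' e k3).symm.trans k2⟩, k3⟩
          by_contra a
          have := (h.of_out (M.mem_ed k1) a).2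
          simp at this
    have c1 := c s0
    have c2 := c (!s0)
    rw [k, card_insert_of_notMem, c1] at c2
    · omega
    · simp only [mem_filter, mem_univ, true_and, P, not_and]
      exact fun a => absurd a.1 (h.out _ m2)
  let f1 : Option U → ℚ := fun x => x.elim (f (M.en (!s0) (ν ec))) (fun y => f y)
  have q1 : ∀ x, x ∈ U → f1 (proj U x) = f x := fun x hx => by rw [proj_in hx]; rfl
  have q2 := hH.2.2 f1 (by
    intro e he
    have he' : e.1 ∉ Mt := fun a => he ((hMt e e.2).1 a)
    have q3 : ∀ s, f1 (proj U (M.en s e)) = f (M.en (!s0) e) := by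
      intro s
      by_cases a : M.en s e ∈ U
      · rw [q1 _ a]
        by_cases b : s = s0
        · rw [b, hf' e he']
        · have : s = !s0 := by cases s <;> cases s0 <;> simp_all
          rw [this]
      · rw [proj_out a]
        rcases h.all _ hec _ (h.of_out e.2 a).1 with k | k | k
        · exact absurd (k ▸ hec') he'
        · rw [k]; rfl
        · rw [k, par]; rfl
    exact (q3 true).trans (q3 false).symm)
  intro x hx y hy
  rw [← q1 x hx, ← q1 y hy]
  exact q2 _ _

end Mp

theorem ham_all (n : ℕ) : ∀ (F E V : Type) [Fintype F] [Fintype E] [Fintype V] (M : Mp F E V),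
    Fintype.card F ≤ n → M.Conn3 → M.Euler → ∀ e0, ∃ Mt, e0 ∈ Mt ∧ M.Ham Mt := by
  induction n with
  | zero =>
    intro F E V _ _ _ M hn _ _ e0
    have : 0 < Fintype.card F := Fintype.card_pos_iff.2 ⟨M.en true e0⟩
    omega
  | succ n ih =>
    intro F E V _ _ _ M hn h3 hE e0
    by_cases h4 : M.Conn4
    · exact M.core h3 hE h4 e0
    have step : ∀ U : Finset F, 2 ≤ U.card → 2 ≤ Uᶜ.card → (M.cut U).card = 3 → e0 ∈ M.ed U →
        ∃ Mt, e0 ∈ Mt ∧ M.Ham Mt := by
      intro U a b c he0
      obtain ⟨s0, ν, h⟩ := M.exists_isCut h3 hE U c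
      have i4 := card_add_card_compl U
      obtain ⟨M1, k1, H1⟩ := ih _ _ _ (Mp.contract h)
        (by simp only [Fintype.card_option, Fintype.card_coe]; omega) (Mp.contract_conn3 h3 h)
        (Mp.contract_euler h3 hE h (card_pos.1 (by omega))) ⟨e0, he0⟩
      obtain ⟨e1, he1⟩ : (M.cut U).Nonempty := card_pos.1 (by omega)
      obtain ⟨ec, k2, k3⟩ := H1.1 s0 ⟨e1, M.cut_sub_ed U he1⟩
      have hec : ec.1 ∈ M.cut U := (h.of_out ec.2 (Mp.proj_eq_out (h.out _ he1) k3)).1
      have hec2 : ec.1 ∈ M.cut Uᶜ := by rw [M.cut_compl]; exact hec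
      obtain ⟨M2, k4, H2⟩ := ih _ _ _ (Mp.contract h.compl)
        (by simp only [Fintype.card_option, Fintype.card_coe]; omega)
        (Mp.contract_conn3 h3 h.compl)
        (Mp.contract_euler h3 hE h.compl (card_pos.1 (by omega))) ⟨ec, M.cut_sub_ed _ hec2⟩
      let Mt : Finset E := M1.image Subtype.val ∪ M2.image Subtype.val
      have hcut : ∀ e, e ∈ M.ed U → e ∈ M.ed Uᶜ → e ∈ M.cut U := by
        intro e
        simp only [Mp.ed, mem_filter, mem_univ, true_and, mem_compl, Mp.mem_cut]; tauto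
      have hM1 : ∀ e (he : e ∈ M.ed U), e ∈ Mt ↔ (⟨e, he⟩ : M.ed U) ∈ M1 := by
        intro e he
        constructor
        · intro h1
          rcases mem_union.1 h1 with h1 | h1
          · obtain ⟨e', k, rfl⟩ := mem_image.1 h1
            exact k
          · obtain ⟨e', k, rfl⟩ := mem_image.1 h1
            have a1 := hcut _ he e'.2
            have := H2.2.1 (!s0) _ k _ k4 (by
              change Mp.proj _ _ = Mp.proj _ _
              rw [Mp.proj_out (h.compl.out _ (by rw [M.cut_compl]; exact a1)),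
                Mp.proj_out (h.compl.out _ hec2)])
            have e3 : e'.1 = ec.1 := congrArg Subtype.val this
            have e2 : (⟨e'.1, he⟩ : M.ed U) = ec := Subtype.ext e3
            rw [e2]; exact k2
        · exact fun h1 => mem_union_left _ (mem_image.2 ⟨_, h1, rfl⟩)
      have hM2 : ∀ e (he : e ∈ M.ed Uᶜ), e ∈ Mt ↔ (⟨e, he⟩ : M.ed Uᶜ) ∈ M2 := by
        intro e he
        constructor
        · intro h1
          rcases mem_union.1 h1 with h1 | h1
          · obtain ⟨e', k, rfl⟩ := mem_image.1 h1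
            have a1 := hcut _ e'.2 he
            have := H1.2.1 s0 _ k _ k2 (by
              change Mp.proj _ _ = Mp.proj _ _
              rw [Mp.proj_out (h.out _ a1), Mp.proj_out (h.out _ hec)])
            subst this
            exact k4
          · obtain ⟨e', k, rfl⟩ := mem_image.1 h1
            exact k
        · exact fun h1 => mem_union_right _ (mem_image.2 ⟨_, h1, rfl⟩)
      have hecM : ec.1 ∈ Mt := (hM1 _ ec.2).2 k2
      obtain ⟨p1, p2, p3, p4⟩ := Mp.side_ham h M1 H1 Mt hM1 ec hec hecM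
      obtain ⟨q1, q2, -, q4⟩ := Mp.side_ham h.compl M2 H2 Mt hM2 ec hec2 hecM
      refine ⟨Mt, (hM1 _ he0).2 k1, fun s e => ?_, fun s e he e' he' hee => ?_, fun f hf => ?_⟩
      · by_cases a : M.en s e ∈ U
        · exact p1 s e a
        · exact q1 s e (mem_compl.2 a)
      · by_cases a : M.en s e ∈ U
        · exact p2 s e he e' he' a hee
        · exact q2 s e he e' he' (mem_compl.2 a) hee
      · have m2 := h.mem _ hec
        have r1 := hf _ p3
        have r2 : ∀ x, f x = f (M.en true (ν ec)) := by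
          intro x
          rw [Mp.mem_cut] at m2
          by_cases a : x ∈ U <;> by_cases b : M.en true (ν ec) ∈ U
          · exact p4 f hf _ a _ b
          · rw [r1]; exact p4 f hf _ a _ (by tauto)
          · rw [r1]; exact q4 f hf _ (mem_compl.2 a) _ (mem_compl.2 (by tauto))
          · exact q4 f hf _ (mem_compl.2 a) _ (mem_compl.2 b)
        intro x y
        rw [r2 x, r2 y]
    unfold Mp.Conn4 at h4
    push Not at h4
    obtain ⟨U, a, b, c⟩ := h4
    have c' : (M.cut U).card = 3 := by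
      have := h3 U (card_pos.1 (by omega)) (card_pos.1 (by omega))
      omega
    by_cases d : M.en true e0 ∈ U
    · exact step U a b c' (M.mem_ed d)
    · exact step Uᶜ b (by rwa [compl_compl]) (by rwa [M.cut_compl]) (M.mem_ed (mem_compl.2 d))

end Vale.Agent.P039
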