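import Vale.Agent.P039.Basic

open Finset
open scoped Classical

noncomputable section

namespace Vale.Agent.P039

variable {F E V : Type} [Fintype F] [Fintype E] [Fintype V]

namespace Mp

variable (M : Mp F E V)

def nc (s : Bool) (U : Finset F) : ℕ := (U.filter (fun x => M.col x = s)).card

omit [Fintype F] [Fintype E] [Fintype V] in
lemma nc_add (U : Finset F) : M.nc true U + M.nc false U = U.card := by
  unfold nc
  rw [← card_filter_add_card_filter_not (s := U) (fun x => M.col x = true)]
  simp

omit [Fintype E] [Fintype V] in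
lemma nc_compl (s : Bool) (U : Finset F) : M.nc s U + M.nc s Uᶜ = M.nc s univ := by
  unfold nc
  rw [← card_union_of_disjoint, ← filter_union, union_compl]
  exact disjoint_filter_filter disjoint_compl_right

omit [Fintype V] in
lemma card_E (s : Bool) : Fintype.card E = 3 * M.nc s univ := by
  have := M.card_en_mem s univ
  simpa [nc] using this

omit [Fintype F] [Fintype V] in
lemma mem_cut {U : Finset F} {e : E} :
    e ∈ M.cut U ↔ ¬ (M.en true e ∈ U ↔ M.en false e ∈ U) := by simp [cut]

omit [Fintype V] in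
lemma cut_compl (U : Finset F) : M.cut Uᶜ = M.cut U := by
  ext e; simp only [mem_cut, mem_compl]; tauto

omit [Fintype F] [Fintype V] in
lemma cut_sub_ed (U : Finset F) : M.cut U ⊆ M.ed U := by
  intro e he
  rw [mem_cut] at he
  simp only [ed, mem_filter, mem_univ, true_and]; tauto

omit [Fintype F] [Fintype V] in
lemma card_ed (s : Bool) (U : Finset F) :
    (M.ed U).card = 3 * M.nc s U + ((M.cut U).filter (fun e => M.en s e ∉ U)).card := by
  unfold nc
  rw [← M.card_en_mem, ← card_union_of_disjoint]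
  · congr 1
    ext e
    simp only [ed, mem_filter, mem_univ, true_and, mem_union, mem_cut]
    cases s <;> tauto
  · rw [disjoint_left]
    intro e h1 h2
    simp only [mem_filter, mem_univ, true_and] at h1 h2
    exact h2.2 h1

lemma side_bound (hc : M.Conn) (U : Finset F) (x0 : F) (hx0 : x0 ∉ U)
    (hcut : ∀ g : V → ℚ, (∀ e ∈ M.cut U, g (M.hd e) = g (M.tl e)) →
      ∃ γ, ∀ e ∈ M.cut U, g (M.tl e) = γ)
    (X : Finset V) (hX : ∀ x ∈ X, ∃ e ∈ M.ed U, x = M.tl e ∨ x = M.hd e) :
    U.card + X.card ≤ (M.ed U).card + 1 := by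
  refine M.lemA hc U x0 hx0 _ (fun s e he => M.mem_ed he) X fun g hg x hx y hy => ?_
  obtain ⟨γ, hγ⟩ := hcut g (fun e he => hg e (M.cut_sub_ed U he))
  have h := M.side_conn hc U g hg γ hγ
  obtain ⟨e, he, h1⟩ := hX x hx
  obtain ⟨e', he', h2⟩ := hX y hy
  have a : g x = g (M.tl e) := by
    rcases h1 with rfl | rfl
    · rfl
    · exact hg e he
  have b : g y = g (M.tl e') := by
    rcases h2 with rfl | rfl
    · rfl
    · exact hg e' he'
  rw [a, b]; exact h e he e' he'

lemma noloop (h3 : M.Conn3) (hE : M.Euler) (e0 : E) : M.hd e0 ≠ M.tl e0 := by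
  intro h0
  obtain ⟨h, hh⟩ := M.flow_exact (Conn3.conn M h3) hE (M.en true e0)
    (fun e => if e = e0 then 1 else 0) (by
      intro g
      simp [dv, h0])
  have h1 := hh e0
  simp only [if_true, dl] at h1
  have := h3 (univ.filter (fun z => h z = h (M.en true e0))) ⟨M.en true e0, by simp⟩
    ⟨M.en false e0, by
      simp only [mem_compl, mem_filter, mem_univ, true_and]
      intro h2; rw [h2] at h1; simp at h1⟩
  have h4 : M.cut (univ.filter (fun z => h z = h (M.en true e0))) ⊆ {e0} := by
    intro e he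
    rw [mem_singleton]
    by_contra hne
    have h5 := hh e
    simp only [if_neg hne, dl] at h5
    have h6 : h (M.en true e) = h (M.en false e) := by linarith
    simp [mem_cut, h6] at he
  have := card_le_card h4
  simp at this
  omega

abbrev Bl (t0 : F) : Type := {t : F // M.col t = true ∧ t ≠ t0}

def root (t0 : F) (v : V) : Prop := ∃ e, M.en true e = t0 ∧ M.tl e = v

def Good (t0 : F) (b : M.Bl t0 → E) : Prop :=
  (∀ t, M.en true (b t) = t.1) ∧ (∀ t, ¬ M.root t0 (M.tl (b t))) ∧
    Function.Injective (fun t => M.tl (b t))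

omit [Fintype E] [Fintype V] in
lemma card_Bl_mem (t0 : F) (U : Finset F) (h : t0 ∉ U) :
    (univ.filter (fun t : M.Bl t0 => t.1 ∈ U)).card = M.nc true U := by
  unfold nc
  refine card_bij (fun t _ => t.1) ?_ ?_ ?_
  · intro t ht
    simp only [mem_filter, mem_univ, true_and] at ht ⊢
    exact ⟨ht, t.2.1⟩
  · intro a _ b _ hab; exact Subtype.ext hab
  · intro x hx
    rw [mem_filter] at hx
    exact ⟨⟨x, hx.2, fun h' => h (h' ▸ hx.1)⟩, by simp [hx.1], rfl⟩

omit [Fintype E] [Fintype V] in
lemma card_Bl (t0 : F) (h0 : M.col t0 = true) : Fintype.card (M.Bl t0) + 1 = M.nc true univ := by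
  have h1 := M.card_Bl_mem t0 {t0}ᶜ (by simp)
  have h2 := M.nc_compl true {t0}
  have h3 : M.nc true {t0} = 1 := by
    unfold nc
    rw [filter_singleton, if_pos h0, card_singleton]
  have h4 : (univ.filter (fun t : M.Bl t0 => t.1 ∈ ({t0}ᶜ : Finset F))) = univ := by
    ext t; simpa using t.2.2
  rw [h4, card_univ] at h1
  omega

lemma card_root (h3 : M.Conn3) (hE : M.Euler) (t0 : F) (h0 : M.col t0 = true) :
    (univ.filter (M.root t0)).card = 3 := by
  obtain ⟨e, he⟩ := M.en_surj t0
  rw [h0] at he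
  have h1 : univ.filter (M.root t0)
      = {M.tl e, M.tl (M.nx true e), M.tl (M.nx true (M.nx true e))} := by
    ext v
    simp only [mem_filter, mem_univ, true_and, mem_insert, mem_singleton, root]
    constructor
    · rintro ⟨e', h1, rfl⟩
      rcases M.fib true e e' (h1.trans he.symm) with rfl | rfl | rfl <;> simp
    · rintro (rfl | rfl | rfl)
      · exact ⟨_, he, rfl⟩
      · exact ⟨_, by rw [M.en_nx, he], rfl⟩
      · exact ⟨_, by rw [M.en_nx, M.en_nx, he], rfl⟩
  have a := M.noloop h3 hE e
  have b := M.noloop h3 hE (M.nx true e)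
  have c := M.noloop h3 hE (M.nx true (M.nx true e))
  unfold hd at a b c
  rw [M.nx3] at c
  rw [h1, card_insert_of_notMem, card_insert_of_notMem, card_singleton]
  · simpa using b.symm
  · simp only [mem_insert, mem_singleton, not_or]; exact ⟨a.symm, c⟩

lemma card_V (h3 : M.Conn3) (hE : M.Euler) (t0 : F) :
    Fintype.card V = M.nc true univ + 2 := by
  have hc := Conn3.conn M h3
  have h1 := M.lemA hc {t0}ᶜ t0 (by simp) univ (fun _ _ _ => mem_univ _) univ
    (fun g hg x _ y _ => M.tconn hc g (fun e => hg e (mem_univ _)) x y)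
  rw [card_compl, card_singleton, card_univ, card_univ] at h1
  have h2 := M.nc_add univ
  rw [card_univ] at h2
  have a := M.card_E true
  have b := M.card_E false
  have c : 0 < Fintype.card F := Fintype.card_pos_iff.2 ⟨t0⟩
  unfold Euler at hE
  omega

lemma card_nonroot (h3 : M.Conn3) (hE : M.Euler) (t0 : F) (h0 : M.col t0 = true) :
    (univ.filter (fun v => ¬ M.root t0 v)).card = Fintype.card (M.Bl t0) := by
  have h1 := card_filter_add_card_filter_not (s := univ) (M.root t0)
  rw [M.card_root h3 hE t0 h0, card_univ, M.card_V h3 hE t0] at h1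
  have := M.card_Bl t0 h0
  omega

lemma Good.surj {M : Mp F E V} (h3 : M.Conn3) (hE : M.Euler) {t0 : F} (h0 : M.col t0 = true)
    {b : M.Bl t0 → E} (hb : M.Good t0 b) (v : V) (hv : ¬ M.root t0 v) : ∃ t, M.tl (b t) = v := by
  have h1 : univ.image (fun t => M.tl (b t)) = univ.filter (fun v => ¬ M.root t0 v) := by
    apply eq_of_subset_of_card_le
    · intro v hv
      obtain ⟨t, _, rfl⟩ := mem_image.1 hv
      simpa using hb.2.1 t
    · rw [card_image_of_injective _ hb.2.2, card_univ, M.card_nonroot h3 hE t0 h0]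
  have : v ∈ univ.image (fun t => M.tl (b t)) := by rw [h1]; simpa using hv
  obtain ⟨t, _, ht⟩ := mem_image.1 this
  exact ⟨t, ht⟩

lemma loop_count (h3 : M.Conn3) (hE : M.Euler) (t0 : F) (h0 : M.col t0 = true)
    (U : Finset F) (hU : t0 ∉ U) (b l : M.Bl t0 → E) (hb : M.Good t0 b)
    (hl : ∀ t, M.en true (l t) = t.1) (hbl : ∀ t, M.tl (b t) = M.tl (l t) ∨ M.tl (b t) = M.hd (l t))
    (c : Finset (M.Bl t0)) (hc0 : c.Nonempty) (hcut : M.cut U = c.image l)
    (hcon : ∀ g : V → ℚ, (∀ t ∈ c, g (M.hd (l t)) = g (M.tl (l t))) →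
      ∃ γ, ∀ t ∈ c, g (M.tl (l t)) = γ) :
    M.nc false U = M.nc true U + 1 ∧
      (c.filter (fun t => t.1 ∈ U)).card + 3 = (c.filter (fun t => t.1 ∉ U)).card := by
  have hc := Conn3.conn M h3
  have hlinj : Function.Injective l := by
    intro a a' h
    apply Subtype.ext
    rw [← hl a, ← hl a', h]
  have hcon' : ∀ g : V → ℚ, (∀ e ∈ M.cut U, g (M.hd e) = g (M.tl e)) →
      ∃ γ, ∀ e ∈ M.cut U, g (M.tl e) = γ := by
    intro g hg
    obtain ⟨γ, hγ⟩ := hcon g (fun t ht => hg _ (by rw [hcut]; exact mem_image_of_mem _ ht))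
    refine ⟨γ, fun e he => ?_⟩
    rw [hcut] at he
    obtain ⟨t, ht, rfl⟩ := mem_image.1 he
    exact hγ t ht
  set A := (c.filter (fun t => t.1 ∈ U)).card with hA
  set B := (c.filter (fun t => t.1 ∉ U)).card with hB
  have hB1 : ((M.cut U).filter (fun e => M.en true e ∉ U)).card = B := by
    rw [hcut, filter_image, card_image_of_injective _ hlinj]
    simp only [hl, hB]
  have hA1 : ((M.cut U).filter (fun e => M.en true e ∉ Uᶜ)).card = A := by
    rw [hcut, filter_image, card_image_of_injective _ hlinj]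
    simp only [hl, hA, mem_compl, not_not]
  have hA2 : ((M.cut U).filter (fun e => M.en false e ∉ U)).card = A := by
    rw [← hA1]
    congr 1
    refine filter_congr fun e he => ?_
    rw [mem_cut] at he
    rw [mem_compl]; tauto
  have e1 := M.card_ed true U
  have e2 := M.card_ed false U
  have e3 := M.card_ed true Uᶜ
  rw [hB1] at e1
  rw [hA2] at e2
  rw [M.cut_compl, hA1] at e3
  -- inside
  have i1 := M.side_bound hc U t0 hU hcon'
    ((univ.filter (fun t : M.Bl t0 => t.1 ∈ U ∨ t ∈ c)).image (fun t => M.tl (b t))) (by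
      intro x hx
      obtain ⟨t, ht, rfl⟩ := mem_image.1 hx
      simp only [mem_filter, mem_univ, true_and] at ht
      rcases ht with ht | ht
      · exact ⟨b t, M.mem_ed (s := true) (by rw [hb.1]; exact ht), Or.inl rfl⟩
      · exact ⟨l t, M.cut_sub_ed U (by rw [hcut]; exact mem_image_of_mem _ ht), hbl t⟩)
  rw [card_image_of_injective _ hb.2.2] at i1
  have c1 : (univ.filter (fun t : M.Bl t0 => t.1 ∈ U ∨ t ∈ c)).card = M.nc true U + B := by
    rw [← M.card_Bl_mem t0 U hU, hB, ← card_union_of_disjoint]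
    · congr 1
      ext t
      simp only [mem_filter, mem_univ, true_and, mem_union]; tauto
    · rw [disjoint_left]
      intro t h1 h2
      simp only [mem_filter, mem_univ, true_and] at h1 h2
      exact h2.2 h1
  -- outside
  obtain ⟨t1, ht1⟩ := hc0
  have hx : ∃ x, x ∈ U := by
    have : l t1 ∈ M.ed U := M.cut_sub_ed U (by rw [hcut]; exact mem_image_of_mem _ ht1)
    obtain ⟨s, hs⟩ := M.mem_ed_iff.1 this
    exact ⟨_, hs⟩
  obtain ⟨x1, hx1⟩ := hx
  have i2 := M.side_bound hc Uᶜ x1 (by simpa using hx1) (by rw [M.cut_compl]; exact hcon')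
    ((univ.filter (fun t : M.Bl t0 => t.1 ∉ U ∨ t ∈ c)).image (fun t => M.tl (b t))
      ∪ univ.filter (M.root t0)) (by
      intro x hx
      rcases mem_union.1 hx with hx | hx
      · obtain ⟨t, ht, rfl⟩ := mem_image.1 hx
        simp only [mem_filter, mem_univ, true_and] at ht
        rcases ht with ht | ht
        · exact ⟨b t, M.mem_ed (s := true) (by rw [hb.1]; simpa using ht), Or.inl rfl⟩
        · exact ⟨l t, M.cut_sub_ed Uᶜ (by rw [M.cut_compl, hcut]; exact mem_image_of_mem _ ht),
            hbl t⟩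
      · obtain ⟨e, he, rfl⟩ := (mem_filter.1 hx).2
        exact ⟨e, M.mem_ed (s := true) (by rw [he]; simpa using hU), Or.inl rfl⟩)
  rw [card_union_of_disjoint, card_image_of_injective _ hb.2.2, M.card_root h3 hE t0 h0] at i2
  swap
  · rw [disjoint_left]
    intro v h1 h2
    obtain ⟨t, _, rfl⟩ := mem_image.1 h1
    exact hb.2.1 t (mem_filter.1 h2).2
  have c2 : (univ.filter (fun t : M.Bl t0 => t.1 ∉ U ∨ t ∈ c)).card + M.nc true U
      = Fintype.card (M.Bl t0) + A := by
    have : (univ.filter (fun t : M.Bl t0 => t.1 ∉ U ∨ t ∈ c)).card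
        = (univ.filter (fun t : M.Bl t0 => ¬ t.1 ∈ U)).card + A := by
      rw [hA, ← card_union_of_disjoint]
      · congr 1
        ext t
        simp only [mem_filter, mem_univ, true_and, mem_union]; tauto
      · rw [disjoint_left]
        intro t h1 h2
        simp only [mem_filter, mem_univ, true_and] at h1 h2
        exact h1 h2.2
    have h5 := card_filter_add_card_filter_not (s := univ) (fun t : M.Bl t0 => t.1 ∈ U)
    rw [M.card_Bl_mem t0 U hU, card_univ] at h5
    omega
  have a1 := M.nc_add U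
  have a2 := M.nc_add Uᶜ
  have a3 := M.nc_compl true U
  have a4 := M.nc_compl false U
  have a5 := M.card_E true
  have a6 := M.card_E false
  have a7 := M.card_Bl t0 h0
  omega

end Mp

end Vale.Agent.P039
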