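import Vale.Agent.P039.Loop

open Finset
open scoped Classical

noncomputable section

namespace Vale.Agent.P039

variable {F E V : Type} [Fintype F] [Fintype E] [Fintype V]

def sg (b : Bool) : ℚ := if b = true then 1 else -1

lemma sg_mul_self (b : Bool) : sg b * sg b = 1 := by cases b <;> simp [sg]

def ind {α : Type} (U : Finset α) (x : α) : ℚ := if x ∈ U then 1 else 0

lemma const_on_class {ι β : Type} [Fintype ι] (σ : Equiv.Perm ι) (t1 : ι) (P : ι → β)
    (h : ∀ t, σ.SameCycle t1 t → P (σ t) = P t) (t : ι) (ht : σ.SameCycle t1 t) : P t = P t1 := by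
  obtain ⟨n, -, rfl⟩ := ht.exists_pow_eq'
  clear ht
  induction n with
  | zero => simp
  | succ k ih =>
    rw [pow_succ', Equiv.Perm.mul_apply, h _ ⟨k, by simp⟩, ih]

namespace Mp

variable (M : Mp F E V)

def src {t0 : F} (l : M.Bl t0 → E) (η : M.Bl t0 → Bool) (t : M.Bl t0) : E :=
  if η t = true then l t else M.nx true (l t)

def dst {t0 : F} (l : M.Bl t0 → E) (η : M.Bl t0 → Bool) (t : M.Bl t0) : E :=
  if η t = true then M.nx true (l t) else l t

def Valid {t0 : F} (l : M.Bl t0 → E) (η : M.Bl t0 → Bool) : Prop :=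
  M.Good t0 (M.src l η) ∧ M.Good t0 (M.dst l η)

omit [Fintype F] [Fintype E] [Fintype V] in
lemma Valid.en {M : Mp F E V} {t0 : F} {l : M.Bl t0 → E} {η : M.Bl t0 → Bool}
    (h : M.Valid l η) (t : M.Bl t0) : M.en true (l t) = t.1 := by
  have := h.1.1 t
  unfold src at this
  split_ifs at this
  · exact this
  · rwa [M.en_nx] at this

lemma exists_perm (h3 : M.Conn3) (hE : M.Euler) {t0 : F} (h0 : M.col t0 = true)
    {b b' : M.Bl t0 → E} (hb : M.Good t0 b) (hb' : M.Good t0 b') :
    ∃ σ : Equiv.Perm (M.Bl t0), ∀ t, M.tl (b (σ t)) = M.tl (b' t) := by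
  choose f hf using fun t => hb.surj h3 hE h0 _ (hb'.2.1 t)
  have hinj : Function.Injective f := by
    intro a a' h
    apply hb'.2.2
    change M.tl (b' a) = M.tl (b' a')
    rw [← hf, ← hf, h]
  exact ⟨Equiv.ofBijective f (Finite.injective_iff_bijective.1 hinj), hf⟩

omit [Fintype F] [Fintype E] [Fintype V] in
lemma sg_dv {t0 : F} (l : M.Bl t0 → E) (η : M.Bl t0 → Bool) (t : M.Bl t0) (g : V → ℚ) :
    sg (η t) * M.dv g (l t) = g (M.tl (M.dst l η t)) - g (M.tl (M.src l η t)) := by
  unfold sg dst src dv hd
  split_ifs <;> ring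

lemma loop_sign (h3 : M.Conn3) (hE : M.Euler) {t0 : F} (h0 : M.col t0 = true)
    (α : E → ℚ) (hα : ∀ U : Finset F, t0 ∉ U → ∑ e, M.dl (ind U) e * α e = M.nc false U)
    {l : M.Bl t0 → E} {η : M.Bl t0 → Bool} (hv : M.Valid l η) (σ : Equiv.Perm (M.Bl t0))
    (hσ : ∀ t, M.tl (M.src l η (σ t)) = M.tl (M.dst l η t)) (t1 : M.Bl t0)
    (c : Finset (M.Bl t0)) (hc : ∀ t, t ∈ c ↔ σ.SameCycle t1 t) :
    ((c.filter (fun t => η t = false)).card = (c.filter (fun t => η t = true)).card + 3 ∧
        0 < ∑ t ∈ c, sg (η t) * α (l t)) ∨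
      ((c.filter (fun t => η t = true)).card = (c.filter (fun t => η t = false)).card + 3 ∧
        ∑ t ∈ c, sg (η t) * α (l t) < 0) := by
  have hcn := Conn3.conn M h3
  have hlinj : Function.Injective l := by
    intro a a' h
    apply Subtype.ext
    rw [← hv.en a, ← hv.en a', h]
  have ht1 : t1 ∈ c := (hc t1).2 (Equiv.Perm.SameCycle.refl _ _)
  have hcσ : ∀ t, t ∈ c ↔ σ t ∈ c := by
    intro t; rw [hc, hc, Equiv.Perm.sameCycle_apply_right]
  have hsum : ∀ y w : E → ℚ, (∀ e, e ∉ c.image l → y e = 0) →
      ∑ e, y e * w e = ∑ t ∈ c, y (l t) * w (l t) := by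
    intro y w hy
    rw [← sum_image (s := c) (g := l) (f := fun e => y e * w e) (fun a _ b _ h => hlinj h)]
    exact (sum_subset (subset_univ _) fun e _ he => by rw [hy e he, zero_mul]).symm
  let z : E → ℚ := fun e => ∑ t ∈ c, if e = l t then sg (η t) else 0
  have hz0 : ∀ e, e ∉ c.image l → z e = 0 := by
    intro e he
    refine sum_eq_zero fun t ht => if_neg ?_
    rintro rfl
    exact he (mem_image_of_mem _ ht)
  have hz1 : ∀ t ∈ c, z (l t) = sg (η t) := by
    intro t ht
    simp only [z, hlinj.eq_iff]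
    rw [sum_ite_eq, if_pos ht]
  obtain ⟨h, hh⟩ := M.flow_exact hcn hE t0 z (by
    intro g
    rw [hsum z _ hz0]
    have : ∀ t ∈ c, z (l t) * M.dv g (l t)
        = g (M.tl (M.src l η (σ t))) - g (M.tl (M.src l η t)) := by
      intro t ht
      rw [hz1 t ht, M.sg_dv, hσ]
    rw [sum_congr rfl this, sum_sub_distrib, sub_eq_zero]
    exact sum_equiv σ hcσ (fun _ _ => rfl))
  let θ := max (h (M.en true (l t1))) (h (M.en false (l t1)))
  let U' : Finset F := univ.filter (fun x => θ ≤ h x)
  have hy0 : ∀ e, e ∉ c.image l → M.dl (ind U') e = 0 := by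
    intro e he
    have h1 := hh e
    rw [hz0 e he] at h1
    have h2 : h (M.en true e) = h (M.en false e) := by unfold dl at h1; linarith
    simp [dl, ind, U', h2]
  have hu : ∀ t ∈ c, M.dl (ind U') (l (σ t)) * sg (η (σ t)) = M.dl (ind U') (l t) * sg (η t) := by
    intro t ht
    have h1 := M.orth (ind U') (fun v => if v = M.tl (M.dst l η t) then 1 else 0)
    rw [hsum _ _ hy0] at h1
    have h2 : ∀ t' ∈ c, M.dl (ind U') (l t') *
        M.dv (fun v => if v = M.tl (M.dst l η t) then 1 else 0) (l t')
        = (if t' = t then M.dl (ind U') (l t') * sg (η t') else 0)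
          - (if t' = σ t then M.dl (ind U') (l t') * sg (η t') else 0) := by
      intro t' _
      have h4 := M.sg_dv l η t' (fun v => if v = M.tl (M.dst l η t) then 1 else 0)
      have h5 : (M.tl (M.dst l η t') = M.tl (M.dst l η t)) ↔ t' = t :=
        hv.2.2.2.eq_iff
      have h6 : (M.tl (M.src l η t') = M.tl (M.dst l η t)) ↔ t' = σ t := by
        rw [← hσ]; exact hv.1.2.2.eq_iff
      simp only [h5, h6] at h4
      have h7 := sg_mul_self (η t')
      have h8 : M.dv (fun v => if v = M.tl (M.dst l η t) then 1 else 0) (l t')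
          = sg (η t') * ((if t' = t then 1 else 0) - (if t' = σ t then 1 else 0)) := by
        rw [← h4, ← mul_assoc, h7, one_mul]
      rw [h8]
      split_ifs <;> ring
    rw [sum_congr rfl h2, sum_sub_distrib, sum_ite_eq', sum_ite_eq', if_pos ht,
      if_pos ((hcσ t).1 ht)] at h1
    linarith
  have hu1 : M.dl (ind U') (l t1) * sg (η t1) = 1 := by
    have h1 := hh (l t1)
    rw [hz1 t1 ht1] at h1
    unfold dl at h1 ⊢
    unfold sg at h1 ⊢
    split_ifs at h1 ⊢
    · have a : θ = h (M.en true (l t1)) := max_eq_left (by linarith)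
      have b : M.en false (l t1) ∉ U' := by
        simp only [U', mem_filter, mem_univ, true_and]; rw [a]; linarith
      have b' : M.en true (l t1) ∈ U' := by
        simp only [U', mem_filter, mem_univ, true_and]; rw [a]
      simp [ind, b, b']
    · have a : θ = h (M.en false (l t1)) := max_eq_right (by linarith)
      have b : M.en true (l t1) ∉ U' := by
        simp only [U', mem_filter, mem_univ, true_and]; rw [a]; linarith
      have b' : M.en false (l t1) ∈ U' := by
        simp only [U', mem_filter, mem_univ, true_and]; rw [a]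
      simp [ind, b, b']
  have hy1 : ∀ t ∈ c, M.dl (ind U') (l t) = sg (η t) := by
    intro t ht
    have h1 := const_on_class σ t1 (fun t => M.dl (ind U') (l t) * sg (η t))
      (fun t ht => hu t ((hc t).2 ht)) t ((hc t).1 ht)
    simp only [hu1] at h1
    have h7 := sg_mul_self (η t)
    linear_combination (sg (η t)) * h1 - (M.dl (ind U') (l t)) * h7
  have aux : ∀ (U : Finset F) (s : ℚ), t0 ∉ U → (s = 1 ∨ s = -1) →
      (∀ e, M.dl (ind U) e = s * M.dl (ind U') e) →
      (c.filter (fun t => s * sg (η t) = 1)).card + 3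
          = (c.filter (fun t => ¬ s * sg (η t) = 1)).card ∧
        0 < s * ∑ t ∈ c, sg (η t) * α (l t) := by
    intro U s hU hs hd
    have hcutm : ∀ e, e ∈ M.cut U ↔ M.dl (ind U) e ≠ 0 := by
      intro e
      rw [mem_cut]
      unfold dl ind
      by_cases a : M.en true e ∈ U <;> by_cases b : M.en false e ∈ U <;> simp [a, b]
    have hcut : M.cut U = c.image l := by
      ext e
      rw [hcutm, hd]
      constructor
      · intro h1
        by_contra h2
        exact h1 (by rw [hy0 e h2, mul_zero])
      · intro h1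
        obtain ⟨t, ht, rfl⟩ := mem_image.1 h1
        rw [hy1 t ht]
        unfold sg
        rcases hs with rfl | rfl <;> split_ifs <;> norm_num
    have hbl : ∀ t, M.tl (M.src l η t) = M.tl (l t) ∨ M.tl (M.src l η t) = M.hd (l t) := by
      intro t
      unfold src
      split_ifs
      · exact Or.inl rfl
      · exact Or.inr rfl
    obtain ⟨k1, k2⟩ := M.loop_count h3 hE t0 h0 U hU (M.src l η) l hv.1 hv.en hbl c ⟨t1, ht1⟩
      hcut (by
        intro g hg
        have e1 : ∀ t ∈ c, g (M.tl (M.src l η t)) = g (M.tl (l t)) := by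
          intro t ht
          rcases hbl t with h1 | h1 <;> rw [h1]
          exact hg t ht
        refine ⟨g (M.tl (M.src l η t1)), fun t ht => ?_⟩
        rw [← e1 t ht]
        refine const_on_class σ t1 (fun t => g (M.tl (M.src l η t))) (fun t ht => ?_) t
          ((hc t).1 ht)
        have h4 := M.sg_dv l η t g
        unfold dv at h4
        rw [hg t ((hc t).2 ht), sub_self, mul_zero] at h4
        simp only [hσ]
        linarith)
    have hmem : ∀ t ∈ c, (t.1 ∈ U ↔ s * sg (η t) = 1) := by
      intro t ht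
      rw [← hy1 t ht, ← hd]
      have h1 : l t ∈ M.cut U := by rw [hcut]; exact mem_image_of_mem _ ht
      rw [mem_cut, hv.en] at h1
      unfold dl ind
      rw [hv.en]
      by_cases a : t.1 ∈ U <;> by_cases b : M.en false (l t) ∈ U
      · exact absurd (iff_of_true a b) h1
      · simp [a, b]
      · simp only [a, b, if_true, if_false, false_iff]; norm_num
      · exact absurd (iff_of_false a b) h1
    constructor
    · rw [← filter_congr hmem, ← filter_congr (fun t ht => (hmem t ht).not)]
      exact k2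
    · have h1 := hα U hU
      simp only [hd, mul_assoc] at h1
      rw [← mul_sum, hsum _ _ hy0, sum_congr rfl (fun t ht => by rw [hy1 t ht])] at h1
      rw [h1, k1]
      positivity
  by_cases hU : t0 ∈ U'
  · right
    obtain ⟨k1, k2⟩ := aux U'ᶜ (-1) (by simpa using hU) (Or.inr rfl) (by
      intro e
      unfold dl ind
      by_cases a : M.en true e ∈ U' <;> by_cases b : M.en false e ∈ U' <;> simp [a, b])
    refine ⟨?_, by linarith⟩
    have a : c.filter (fun t => (-1 : ℚ) * sg (η t) = 1) = c.filter (fun t => η t = false) := by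
      refine filter_congr fun t _ => ?_
      cases η t <;> norm_num [sg]
    have b : c.filter (fun t => ¬ (-1 : ℚ) * sg (η t) = 1) = c.filter (fun t => η t = true) := by
      refine filter_congr fun t _ => ?_
      cases η t <;> norm_num [sg]
    rw [a, b] at k1
    omega
  · left
    obtain ⟨k1, k2⟩ := aux U' 1 hU (Or.inl rfl) (by intro e; rw [one_mul])
    refine ⟨?_, by linarith⟩
    have a : c.filter (fun t => (1 : ℚ) * sg (η t) = 1) = c.filter (fun t => η t = true) := by
      refine filter_congr fun t _ => ?_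
      cases η t <;> norm_num [sg]
    have b : c.filter (fun t => ¬ (1 : ℚ) * sg (η t) = 1) = c.filter (fun t => η t = false) := by
      refine filter_congr fun t _ => ?_
      cases η t <;> norm_num [sg]
    rw [a, b] at k1
    omega

end Mp

end Vale.Agent.P039
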