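import Vale.Agent.P039.Sign

open Finset Polynomial
open scoped Classical

noncomputable section

namespace Vale.Agent.P039

variable {F E V : Type} [Fintype F] [Fintype E] [Fintype V]

lemma sign_eq_one_of_odd {ι : Type} [Fintype ι] [DecidableEq ι] (σ : Equiv.Perm ι)
    (h' : ∀ t (c : Finset ι), (∀ t', t' ∈ c ↔ σ.SameCycle t t') → Odd c.card) :
    Equiv.Perm.sign σ = 1 := by
  have h : ∀ t, Odd (univ.filter (fun t' => σ.SameCycle t t')).card :=
    fun t => h' t _ (by simp)
  let N := ∏ t, (univ.filter (fun t' => σ.SameCycle t t')).card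
  have hN : Odd N := by
    refine prod_induction _ (fun n => Odd n) (fun a b ha hb => ha.mul hb) odd_one fun t _ => h t
  have h1 : σ ^ N = 1 := by
    ext t
    by_cases ht : σ t = t
    · simp [Equiv.Perm.pow_apply_eq_self_of_apply_eq_self ht]
    · have h2 : (σ.cycleOf t).support = univ.filter (fun t' => σ.SameCycle t t') := by
        ext t'
        rw [Equiv.Perm.mem_support_cycleOf_iff]
        simp [ht]
      have h3 := Equiv.Perm.pow_mod_card_support_cycleOf_self_apply σ N t
      have h4 : N % (σ.cycleOf t).support.card = 0 := by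
        rw [h2]
        exact Nat.mod_eq_zero_of_dvd (dvd_prod_of_mem _ (mem_univ t))
      rw [h4] at h3
      rw [← h3]; simp
  have h5 : Equiv.Perm.sign σ ^ N = 1 := by rw [← map_pow, h1, map_one]
  rcases Int.units_eq_one_or (Equiv.Perm.sign σ) with h6 | h6
  · exact h6
  · rw [h6, hN.neg_one_pow] at h5
    exact absurd h5 (by decide)

lemma prod_one_add_lin {ι : Type} (s : Finset ι) (a : ι → ℚ) :
    ∃ q : ℚ[X], ∏ t ∈ s, (1 + C (a t) * X) = 1 + X * q ∧ q.eval 0 = ∑ t ∈ s, a t := by
  induction s using Finset.induction_on with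
  | empty => exact ⟨0, by simp, by simp⟩
  | insert i s hi ih =>
    obtain ⟨q, h1, h2⟩ := ih
    refine ⟨q + C (a i) + C (a i) * X * q, ?_, ?_⟩
    · rw [prod_insert hi, h1]; ring
    · rw [sum_insert hi]; simp [h2]; ring

lemma prod_sg {ι : Type} (c : Finset ι) (η : ι → Bool) :
    ∏ t ∈ c, sg (η t) = (-1) ^ (c.filter (fun t => η t = false)).card := by
  unfold sg
  rw [prod_ite]
  simp

lemma sum_ne_zero_of_lead {ι : Type} (s : Finset ι) (hs : s.Nonempty) (T : ι → ℚ[X]) (n : ℕ)
    (h : ∀ i ∈ s, ∃ (L K : ℕ) (q : ℚ[X]), T i = X ^ L * q ∧ 2 * K = n + 3 * L ∧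
      0 < (-1) ^ K * q.eval 0) : ∑ i ∈ s, T i ≠ 0 := by
  choose! L K q h1 h2 h3 using h
  obtain ⟨i0, hi0, hmin⟩ := exists_min_image s L hs
  intro h0
  have h4 : 0 < ∑ i ∈ s, (-1) ^ K i0 * (T i).coeff (L i0) := by
    refine sum_pos' (fun i hi => ?_) ⟨i0, hi0, ?_⟩
    · rw [h1 i hi, coeff_X_pow_mul']
      split_ifs with hle
      · have e1 : L i = L i0 := le_antisymm hle (hmin i hi)
        have e2 : K i = K i0 := by
          have := h2 i hi
          have := h2 i0 hi0
          omega
        rw [e1, Nat.sub_self, coeff_zero_eq_eval_zero, ← e2]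
        exact (h3 i hi).le
      · simp
    · rw [h1 i0 hi0, coeff_X_pow_mul', if_pos le_rfl, Nat.sub_self, coeff_zero_eq_eval_zero]
      exact h3 i0 hi0
  rw [← mul_sum, ← finset_sum_coeff, h0] at h4
  simp at h4

namespace Mp

variable (M : Mp F E V)

omit [Fintype E] [Fintype V] in
lemma valid_xor {t0 : F} {l : M.Bl t0 → E} {η : M.Bl t0 → Bool} (hv : M.Valid l η)
    (σ : Equiv.Perm (M.Bl t0)) (hσ : ∀ t, M.tl (M.src l η (σ t)) = M.tl (M.dst l η t))
    (ζ : M.Bl t0 → Bool) :
    M.Valid l (fun t => xor (η t) (ζ t)) ↔ ∀ t, ζ (σ t) = ζ t := by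
  have e1 : ∀ t, M.src l (fun t => xor (η t) (ζ t)) t
      = if ζ t = true then M.dst l η t else M.src l η t := by
    intro t
    cases h1 : η t <;> cases h2 : ζ t <;> simp [src, dst, h1, h2]
  have e2 : ∀ t, M.dst l (fun t => xor (η t) (ζ t)) t
      = if ζ t = true then M.src l η t else M.dst l η t := by
    intro t
    cases h1 : η t <;> cases h2 : ζ t <;> simp [src, dst, h1, h2]
  constructor
  · intro hv' t
    cases h1 : ζ t <;> cases h2 : ζ (σ t)
    · rfl
    · have : σ t = t := by
        apply hv'.2.2.2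
        simp only [e2, h1, h2, if_true, Bool.false_eq_true, if_false]
        exact hσ t
      rw [this, h1] at h2
      exact absurd h2 (by decide)
    · have : σ t = t := by
        apply hv'.1.2.2
        simp only [e1, h1, h2, if_true, Bool.false_eq_true, if_false]
        exact hσ t
      rw [this, h1] at h2
      exact absurd h2 (by decide)
    · rfl
  · intro hζ
    have hi := hv.1.2.2
    refine ⟨⟨fun t => ?_, fun t => ?_, fun a b hab => ?_⟩, ⟨fun t => ?_, fun t => ?_,
      fun a b hab => ?_⟩⟩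
    · rw [e1]; split_ifs
      · exact hv.2.1 t
      · exact hv.1.1 t
    · rw [e1]; split_ifs
      · exact hv.2.2.1 t
      · exact hv.1.2.1 t
    · simp only [e1] at hab
      split_ifs at hab with ha hb hb
      · exact hv.2.2.2 hab
      · rw [← hσ] at hab
        have := hi hab
        rw [← this, hζ] at hb
        exact absurd ha hb
      · rw [← hσ] at hab
        have := hi hab
        rw [this, hζ] at ha
        exact absurd hb ha
      · exact hi hab
    · rw [e2]; split_ifs
      · exact hv.1.1 t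
      · exact hv.2.1 t
    · rw [e2]; split_ifs
      · exact hv.1.2.1 t
      · exact hv.2.2.1 t
    · simp only [e2] at hab
      split_ifs at hab with ha hb hb
      · exact hi hab
      · rw [← hσ] at hab
        have := hi hab
        rw [this, hζ] at ha
        exact absurd ha hb
      · rw [← hσ] at hab
        have := hi hab
        rw [← this, hζ] at hb
        exact absurd hb ha
      · exact hv.2.2.2 hab

lemma config_lead (h3 : M.Conn3) (hE : M.Euler) {t0 : F} (h0 : M.col t0 = true)
    (α A : E → ℚ) (hα : ∀ U : Finset F, t0 ∉ U → ∑ e, M.dl (ind U) e * α e = M.nc false U)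
    (hA : ∀ e, M.en true e ≠ t0 → A e - A (M.nx true e) = α e)
    {l : M.Bl t0 → E} {η0 : M.Bl t0 → Bool} (hv : M.Valid l η0) :
    ∃ (L K : ℕ) (q : ℚ[X]),
      (∑ η, if M.Valid l η then ∏ t, (C (sg (η t)) * (1 + C (A (M.src l η t)) * X)) else 0)
        = X ^ L * q ∧ 2 * K = Fintype.card (M.Bl t0) + 3 * L ∧ 0 < (-1) ^ K * q.eval 0 := by
  obtain ⟨σ, hσ⟩ := M.exists_perm h3 hE h0 hv.1 hv.2
  let Q := Quotient (Equiv.Perm.SameCycle.setoid σ)
  let mk : M.Bl t0 → Q := Quotient.mk _
  let Fn : M.Bl t0 → Bool → ℚ[X] := fun t β =>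
    C (sg β) * (1 + C (A (if β = true then l t else M.nx true (l t))) * X)
  have h1 : (∑ η, if M.Valid l η then
      ∏ t, (C (sg (η t)) * (1 + C (A (M.src l η t)) * X)) else 0)
      = ∑ ζ : Q → Bool, ∏ t, Fn t (xor (η0 t) (ζ (mk t))) := by
    rw [← sum_filter]
    symm
    refine sum_bij (fun ζ _ => fun t => xor (η0 t) (ζ (mk t))) ?_ ?_ ?_ ?_
    · intro ζ _
      simp only [mem_filter, mem_univ, true_and]
      rw [M.valid_xor hv σ hσ]
      intro t
      congr 1
      exact Quotient.sound (Equiv.Perm.SameCycle.symm ⟨1, by simp⟩)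
    · intro ζ _ ζ' _ h
      funext c
      obtain ⟨t, rfl⟩ := Quotient.exists_rep c
      have := congrFun h t
      simpa using this
    · intro η hη
      simp only [mem_filter, mem_univ, true_and] at hη
      have e : η = fun t => xor (η0 t) (xor (η0 t) (η t)) := by
        funext t; simp
      rw [e, M.valid_xor hv σ hσ] at hη
      refine ⟨Quotient.lift (fun t => xor (η0 t) (η t)) (fun a b hab => ?_), mem_univ _, ?_⟩
      · exact (const_on_class σ a (fun t => xor (η0 t) (η t)) (fun t _ => hη t) b hab).symm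
      · funext t; simp [mk]
    · intro ζ _
      rfl
  have h2 : ∑ ζ : Q → Bool, ∏ t, Fn t (xor (η0 t) (ζ (mk t)))
      = ∏ c : Q, ∑ β : Bool, ∏ t ∈ univ.filter (fun t => mk t = c), Fn t (xor (η0 t) β) := by
    rw [prod_univ_sum, Fintype.piFinset_univ]
    refine sum_congr rfl fun ζ _ => ?_
    rw [← prod_fiberwise (s := univ) (g := mk)]
    refine prod_congr rfl fun c _ => prod_congr rfl fun t ht => ?_
    rw [(mem_filter.1 ht).2]
  have h4 : ∀ c : Q, ∃ (k : ℕ) (q : ℚ[X]),
      ∑ β : Bool, ∏ t ∈ univ.filter (fun t => mk t = c), Fn t (xor (η0 t) β) = X * q ∧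
        2 * k = (univ.filter (fun t => mk t = c)).card + 3 ∧ 0 < (-1) ^ k * q.eval 0 := by
    intro c
    obtain ⟨t1, rfl⟩ := Quotient.exists_rep c
    set s := univ.filter (fun t => mk t = Quotient.mk _ t1) with hs
    have hc : ∀ t, t ∈ s ↔ σ.SameCycle t1 t := by
      intro t
      simp only [hs, mem_filter, mem_univ, true_and, mk]
      rw [Quotient.eq]
      exact ⟨fun h => h.symm, fun h => h.symm⟩
    have hl := M.loop_sign h3 hE h0 α hα hv σ hσ t1 s hc
    obtain ⟨q1, a1, b1⟩ := prod_one_add_lin s (fun t => A (M.src l η0 t))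
    obtain ⟨q2, a2, b2⟩ := prod_one_add_lin s (fun t => A (M.dst l η0 t))
    have hcard := card_filter_add_card_filter_not (s := s) (fun t => η0 t = true)
    simp only [Bool.not_eq_true] at hcard
    set p := (s.filter (fun t => η0 t = true)).card with hp
    set m := (s.filter (fun t => η0 t = false)).card with hm
    have f1 : ∏ t ∈ s, Fn t (xor (η0 t) false) = C ((-1) ^ m) * (1 + X * q1) := by
      rw [← a1, ← prod_sg, map_prod, ← prod_mul_distrib]
      refine prod_congr rfl fun t _ => ?_
      simp [Fn, src]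
    have f2 : ∏ t ∈ s, Fn t (xor (η0 t) true) = C ((-1) ^ p) * (1 + X * q2) := by
      have : p = (s.filter (fun t => (!η0 t) = false)).card := by simp [hp]
      rw [← a2, this, ← prod_sg, map_prod, ← prod_mul_distrib]
      refine prod_congr rfl fun t _ => ?_
      cases h : η0 t <;> simp [Fn, dst, h]
    have f3 : q1.eval 0 - q2.eval 0 = ∑ t ∈ s, sg (η0 t) * α (l t) := by
      rw [b1, b2, ← sum_sub_distrib]
      refine sum_congr rfl fun t _ => ?_
      have := hA (l t) (by rw [hv.en]; exact t.2.2)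
      unfold src dst sg
      split_ifs <;> linarith
    rw [Fintype.sum_bool, f1, f2]
    rcases hl with ⟨k1, k2⟩ | ⟨k1, k2⟩
    · refine ⟨m, C ((-1) ^ m) * (q1 - q2), ?_, by omega, ?_⟩
      · rw [k1, pow_add]
        simp only [map_mul, map_pow, map_neg, map_one]
        ring
      · rw [eval_mul, eval_C, eval_sub, f3, ← mul_assoc, ← mul_pow]
        simpa using k2
    · refine ⟨p, C ((-1) ^ m) * (q1 - q2), ?_, by omega, ?_⟩
      · rw [k1, pow_add]
        simp only [map_mul, map_pow, map_neg, map_one]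
        ring
      · rw [eval_mul, eval_C, eval_sub, f3, ← mul_assoc, k1, pow_add, mul_right_comm _ _ (_ ^ m),
          ← mul_pow]
        norm_num
        exact k2
  choose k q g1 g2 g3 using h4
  refine ⟨Fintype.card Q, ∑ c, k c, ∏ c, q c, ?_, ?_, ?_⟩
  · rw [h1, h2, prod_congr rfl (fun c _ => g1 c), prod_mul_distrib, prod_const, card_univ]
  · rw [mul_sum, sum_congr rfl (fun c _ => g2 c), sum_add_distrib, sum_const, card_univ,
      ← card_eq_sum_card_fiberwise (fun _ _ => mem_univ _), card_univ]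
    simp [mul_comm]
  · rw [eval_prod, ← prod_pow_eq_pow_sum, ← prod_mul_distrib]
    exact prod_pos fun c _ => g3 c

def cn (β : Bool) (e : E) : E := if β = true then M.nx true e else M.nx true (M.nx true e)

def Nm {t0 : F} (b : M.Bl t0 → E) : Matrix (M.Bl t0) (M.Bl t0) ℚ :=
  fun t' t => ∑ β : Bool, sg β * (if M.tl (b t') = M.tl (M.cn β (b t)) then 1 else 0)

def lam {t0 : F} (b : M.Bl t0 → E) (η : M.Bl t0 → Bool) (t : M.Bl t0) : E :=
  if η t = true then b t else M.nx true (M.nx true (b t))

omit [Fintype F] [Fintype E] [Fintype V] in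
lemma src_lam {t0 : F} (b : M.Bl t0 → E) (η : M.Bl t0 → Bool) : M.src (M.lam b η) η = b := by
  funext t
  cases h : η t <;> simp [src, lam, h, M.nx3]

omit [Fintype F] [Fintype E] [Fintype V] in
lemma lam_src {t0 : F} (l : M.Bl t0 → E) (η : M.Bl t0 → Bool) : M.lam (M.src l η) η = l := by
  funext t
  cases h : η t <;> simp [src, lam, h, M.nx3]

omit [Fintype F] [Fintype E] [Fintype V] in
lemma dst_lam {t0 : F} (b : M.Bl t0 → E) (η : M.Bl t0 → Bool) (t : M.Bl t0) :
    M.dst (M.lam b η) η t = M.cn (η t) (b t) := by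
  unfold dst lam cn
  split_ifs <;> rfl

lemma det_Nm (h3 : M.Conn3) (hE : M.Euler) {t0 : F} (h0 : M.col t0 = true)
    (α : E → ℚ) (hα : ∀ U : Finset F, t0 ∉ U → ∑ e, M.dl (ind U) e * α e = M.nc false U)
    {b : M.Bl t0 → E} (hb : M.Good t0 b) :
    (M.Nm b).det = ∑ η, if M.Valid (M.lam b η) η then ∏ t, sg (η t) else 0 := by
  rw [Matrix.det_apply']
  simp only [Nm]
  simp only [prod_univ_sum, Fintype.piFinset_univ, mul_sum]
  rw [sum_comm]
  refine sum_congr rfl fun η _ => ?_
  simp only [prod_mul_distrib, prod_boole]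
  split_ifs with hv
  · obtain ⟨σ, hσ⟩ := M.exists_perm h3 hE h0 hv.1 hv.2
    have hs : Equiv.Perm.sign σ = 1 := by
      refine sign_eq_one_of_odd σ fun t c hc => ?_
      have hl := M.loop_sign h3 hE h0 α hα hv σ hσ t c hc
      have hcard := card_filter_add_card_filter_not (s := c) (fun t => η t = true)
      simp only [Bool.not_eq_true] at hcard
      rw [Nat.odd_iff]
      omega
    simp only [src_lam, dst_lam] at hσ
    rw [sum_eq_single σ]
    · rw [if_pos (fun t _ => hσ t), hs]; simp
    · intro τ _ hτ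
      rw [if_neg, mul_zero, mul_zero]
      intro h
      apply hτ
      ext1 t
      apply hb.2.2
      exact (h t (mem_univ _)).trans (hσ t).symm
    · simp
  · refine sum_eq_zero fun τ _ => ?_
    rw [if_neg, mul_zero, mul_zero]
    intro h
    apply hv
    refine ⟨by rw [src_lam]; exact hb, fun t => ?_, fun t => ?_, fun a a' haa => ?_⟩
    · rw [dst_lam, ← hb.1 t]
      unfold cn
      split_ifs <;> simp [M.en_nx]
    · rw [dst_lam, ← h t (mem_univ _)]
      exact hb.2.1 _
    · simp only [dst_lam] at haa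
      rw [← h a (mem_univ _), ← h a' (mem_univ _)] at haa
      exact τ.injective (hb.2.2 haa)

theorem exists_good_det (h3 : M.Conn3) (hE : M.Euler) {t0 : F} (h0 : M.col t0 = true)
    {l0 : M.Bl t0 → E} {η0 : M.Bl t0 → Bool} (hv : M.Valid l0 η0) :
    ∃ b, M.Good t0 b ∧ (M.Nm b).det ≠ 0 := by
  have hc := Conn3.conn M h3
  let τ : F → ℚ := fun x => (if M.col x = false then 1 else 0)
    - (if x = t0 then (M.nc false univ : ℚ) else 0)
  obtain ⟨α, hα0⟩ := M.exists_curl hc τ (by
    simp only [τ, sum_sub_distrib, sum_ite_eq', mem_univ, if_true, sum_boole, nc, sub_self])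
  have hα : ∀ U : Finset F, t0 ∉ U → ∑ e, M.dl (ind U) e * α e = M.nc false U := by
    intro U hU
    rw [hα0]
    have : ∀ x ∈ univ, ind U x * τ x = if x ∈ U ∧ M.col x = false then 1 else 0 := by
      intro x _
      unfold ind
      by_cases a : x ∈ U
      · have : x ≠ t0 := fun h => hU (h ▸ a)
        simp [τ, a, this]
      · simp [a]
    rw [sum_congr rfl this, sum_boole]
    unfold nc
    congr 2
    ext x; simp
  have hα1 : ∀ e, M.en true e ≠ t0 →
      α e + α (M.nx true e) + α (M.nx true (M.nx true e)) = 0 := by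
    intro e he
    have h1 := hα {M.en true e} (by simpa using he.symm)
    have h2 : M.nc false {M.en true e} = 0 := by
      unfold nc
      rw [filter_singleton, if_neg (by rw [M.col_en]; decide), card_empty]
    rw [← M.sum_fiber, sum_filter]
    rw [h2] at h1
    refine Eq.trans (sum_congr rfl fun e' _ => ?_) (h1.trans Nat.cast_zero)
    have := (M.en_ne e e').symm
    simp [dl, ind, this]
  let A : E → ℚ := fun e => (α e - α (M.nx true (M.nx true e))) / 3
  have hA : ∀ e, M.en true e ≠ t0 → A e - A (M.nx true e) = α e := by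
    intro e he
    have := hα1 e he
    simp only [A, M.nx3]
    linarith
  let T : (M.Bl t0 → E) → ℚ[X] := fun l =>
    ∑ η, if M.Valid l η then ∏ t, (C (sg (η t)) * (1 + C (A (M.src l η t)) * X)) else 0
  have hS : ∑ l ∈ univ.filter (fun l => ∃ η, M.Valid l η), T l ≠ 0 := by
    refine sum_ne_zero_of_lead _ ⟨l0, by simpa using ⟨η0, hv⟩⟩ T (Fintype.card (M.Bl t0))
      fun l hl => ?_
    obtain ⟨η, hη⟩ := (mem_filter.1 hl).2
    exact M.config_lead h3 hE h0 α A hα hA hη
  by_contra hno
  push Not at hno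
  apply hS
  have e1 : ∑ l ∈ univ.filter (fun l => ∃ η, M.Valid l η), T l = ∑ l, T l := by
    refine sum_subset (subset_univ _) fun l _ hl => ?_
    refine sum_eq_zero fun η _ => if_neg fun h => hl ?_
    simpa using ⟨η, h⟩
  rw [e1]
  simp only [T]
  rw [sum_comm]
  have e2 : ∀ η : M.Bl t0 → Bool, (∑ l : M.Bl t0 → E, if M.Valid l η then
      ∏ t, (C (sg (η t)) * (1 + C (A (M.src l η t)) * X)) else 0)
      = ∑ b : M.Bl t0 → E, C (if M.Valid (M.lam b η) η then ∏ t, sg (η t) else 0) *
        ∏ t, (1 + C (A (b t)) * X) := by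
    intro η
    let ε : (M.Bl t0 → E) ≃ (M.Bl t0 → E) :=
      ⟨fun l => M.src l η, fun b => M.lam b η, fun l => M.lam_src l η, fun b => M.src_lam b η⟩
    refine Fintype.sum_equiv ε _ _ fun l => ?_
    simp only [ε, Equiv.coe_fn_mk, lam_src]
    split_ifs
    · rw [prod_mul_distrib, map_prod]
    · simp
  rw [sum_congr rfl (fun η _ => e2 η), sum_comm]
  refine sum_eq_zero fun b _ => ?_
  rw [← sum_mul, ← map_sum]
  by_cases hb : M.Good t0 b
  · rw [← M.det_Nm h3 hE h0 α hα hb, hno b hb]; simp
  · rw [sum_eq_zero]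
    · simp
    · intro η _
      refine if_neg fun h => hb ?_
      have := h.1
      rwa [src_lam] at this

end Mp

end Vale.Agent.P039
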